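import Vale.Agent.P030.H580.Collar

/-! # Partition of unity subordinate to a decision tree of walls, flat near a finite set (helper580)
-/

open MeasureTheory Set Filter Topology Complex

namespace Vale.Agent.P030.H580

/-- **Partition of unity adapted to a finite set of points.**  `T` = decision tree of walls
`g j = 0`, cells `i` with closed regions `T.reg g ε i`.  For every finite set `A` of at most `K`
points there is a `C¹` partition of unity `θ` with supports in the regions, with values in `{0,1}`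
at the points of `A`, with derivatives `O(K)`, which vanish at distance
`< min 1 (2ε/(3(K+1)L))` from `A` and outside the ball of radius `R1`. -/
theorem exists_partition {κ ι : Type} [DecidableEq ι] [Fintype ι] [Fintype κ]
    (T : WTree κ ι) (g : κ → ℂ → ℝ) (hg : ∀ j, ContDiff ℝ 1 (g j))
    {ε L R1 : ℝ} (hε : 0 < ε) (hL0 : 0 < L)
    (hLd : ∀ j z, |g j z| ≤ ε → ‖fderiv ℝ (g j) z‖ ≤ L)
    (hLip : ∀ j x z, |g j x| ≤ ε → dist x z ≤ 1 → |g j x - g j z| ≤ L * dist x z)
    (ie : ι) (hext : ∀ z : ℂ, R1 < ‖z‖ → ∀ i, i ≠ ie → z ∉ T.reg g ε i) :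
    ∃ C1 : ℝ, 0 < C1 ∧ ∀ K : ℕ, ∀ A : Finset ℂ, A.card ≤ K →
      ∃ θ : ι → ℂ → ℝ, (∀ i, ContDiff ℝ 1 (θ i)) ∧ (∀ i z, 0 ≤ θ i z) ∧
        (∀ z, ∑ i, θ i z = 1) ∧ (∀ i, tsupport (θ i) ⊆ T.reg g ε i) ∧
        (∀ z ∈ A, ∃ i, z ∈ T.reg g ε i ∧ θ i z = 1 ∧ ∀ i', i' ≠ i → θ i' z = 0) ∧
        (∀ i z, ‖fderiv ℝ (θ i) z‖ ≤ C1 * (K + 1)) ∧
        (∀ z ∈ A, ∀ x, dist x z < min 1 (2 * ε / (3 * (K + 1)) / L) →
          ∀ i, fderiv ℝ (θ i) x = 0) ∧
        (∀ x : ℂ, R1 < ‖x‖ → ∀ i, fderiv ℝ (θ i) x = 0) ∧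
        (∀ x : ℂ, R1 < ‖x‖ → θ ie x = 1 ∧ ∀ i, i ≠ ie → θ i x = 0) := by
  classical
  obtain ⟨C0, hC0, hC0'⟩ := exists_bound_deriv_smoothTransition
  refine ⟨C0 * L * 3 / (2 * ε) * T.depth + 1, by positivity, fun K A hA => ?_⟩
  have hK : (0 : ℝ) < K + 1 := by positivity
  set h : ℝ := 2 * ε / (3 * (K + 1)) with hh
  have hpos : 0 < h := by positivity
  choose t ht1 ht2 ht3 using fun j => exists_collar (g j) hε A hA
  rw [← hh] at ht1 ht2 ht3
  have ht1' : ∀ j, -ε ≤ t j := fun j => by linarith [ht1 j]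
  have ht2' : ∀ j, t j + h ≤ ε := fun j => by linarith [ht2 j]
  set σ : κ → ℂ → ℝ := fun j => sg (g j) (t j) h with hσ
  have hσ1 : ∀ j, ContDiff ℝ 1 (σ j) := fun j => contDiff_sg (hg j) _ _
  have hσm : ∀ z j, 0 ≤ σ j z ∧ σ j z ≤ 1 := fun z j => prof_mem _ _ _
  have hσ0 : ∀ z j, g j z < -ε → σ j z = 0 := fun z j hz =>
    prof_zero hpos (by linarith [ht1' j])
  have hσ1' : ∀ z j, ε < g j z → σ j z = 1 := fun z j hz =>
    prof_one hpos (by linarith [ht2' j])
  set w : ι → ℂ → ℝ := fun i => T.wt σ i with hw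
  have hw1 : ∀ i, ContDiff ℝ 1 (w i) := fun i => T.contDiff_wt hσ1 i
  have hcl : ∀ i, IsClosed (T.reg g ε i) := fun i =>
    T.isClosed_reg (fun j => (hg j).continuous) ε i
  have hsup : ∀ i, tsupport (w i) ⊆ T.reg g ε i := by
    intro i
    refine closure_minimal ?_ (hcl i)
    intro z hz
    exact T.wt_ne_zero_mem_reg (hσ0 z) (hσ1' z) i hz
  have hext0 : ∀ z : ℂ, R1 < ‖z‖ → ∀ i, i ≠ ie → w i z = 0 := by
    intro z hz i hi
    by_contra hne
    exact hext z hz i hi (T.wt_ne_zero_mem_reg (hσ0 z) (hσ1' z) i hne)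
  have hext1 : ∀ z : ℂ, R1 < ‖z‖ → w ie z = 1 := by
    intro z hz
    have h1 := T.sum_wt σ z
    rw [Finset.sum_eq_single ie] at h1
    · exact h1
    · intro i _ hi
      exact hext0 z hz i hi
    · intro hn
      exact absurd (Finset.mem_univ _) hn
  have hopen : IsOpen {z : ℂ | R1 < ‖z‖} := isOpen_lt continuous_const continuous_norm
  have hdwext : ∀ z : ℂ, R1 < ‖z‖ → ∀ i, fderiv ℝ (w i) z = 0 := by
    intro z hz i
    by_cases hi : i = ie
    · subst hi
      have : w i =ᶠ[𝓝 z] fun _ => (1 : ℝ) := by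
        filter_upwards [hopen.mem_nhds hz] with y hy
        exact hext1 y hy
      rw [this.fderiv_eq]
      simp
    · have : w i =ᶠ[𝓝 z] fun _ => (0 : ℝ) := by
        filter_upwards [hopen.mem_nhds hz] with y hy
        exact hext0 y hy i hi
      rw [this.fderiv_eq]
      simp
  have hflat : ∀ z, (∀ j, g j z < t j ∨ t j + h < g j z) → ∀ i, fderiv ℝ (w i) z = 0 := by
    intro z hno i
    have hfd : ∀ j, ‖fderiv ℝ (σ j) z‖ ≤ 0 := by
      intro j
      rw [hσ]
      simp only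
      rw [fderiv_sg_eq_zero (hg j) hpos (hno j)]
      simp
    have := T.norm_fderiv_wt_le hσ1 (hσm z) le_rfl hfd i
    rw [zero_mul] at this
    exact norm_le_zero_iff.1 this
  refine ⟨w, hw1, ?_, T.sum_wt σ, hsup, ?_, ?_, ?_, hdwext, fun x hx => ⟨hext1 x hx,
    fun i hi => hext0 x hx i hi⟩⟩
  · intro i z
    exact (T.wt_mem (hσm z) i).1
  · intro z hz
    have h01 : ∀ j, σ j z = 0 ∨ σ j z = 1 := by
      intro j
      rcases ht3 j z hz with h1 | h1
      · left
        exact prof_zero hpos (by linarith)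
      · right
        exact prof_one hpos (by linarith)
    obtain ⟨i0, hi0⟩ := T.exists_pick h01
    refine ⟨i0, ?_, ?_, ?_⟩
    · refine T.wt_ne_zero_mem_reg (hσ0 z) (hσ1' z) i0 ?_
      rw [hi0 i0, if_pos rfl]
      norm_num
    · change T.wt σ i0 z = 1
      rw [hi0 i0, if_pos rfl]
    · intro i hi
      change T.wt σ i z = 0
      rw [hi0 i, if_neg hi]
  · intro i z
    have hfd : ∀ j, ‖fderiv ℝ (σ j) z‖ ≤ C0 / h * L := by
      intro j
      by_cases hj : |g j z| ≤ ε
      · exact norm_fderiv_sg_le (hg j) hpos hC0' (hLd j z hj)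
      · have : g j z < t j ∨ t j + h < g j z := by
          by_contra hcon
          push Not at hcon
          apply hj
          rw [abs_le]
          exact ⟨(ht1' j).trans hcon.1, hcon.2.trans (ht2' j)⟩
        rw [hσ]
        simp only
        rw [fderiv_sg_eq_zero (hg j) hpos this, norm_zero]
        positivity
    have h1 := T.norm_fderiv_wt_le hσ1 (hσm z) (by positivity) hfd i
    refine h1.trans ?_
    have h2 : C0 / h * L * T.depth = C0 * L * 3 / (2 * ε) * T.depth * (K + 1) := by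
      rw [hh]
      field_simp
    have h3 : T.depth * (C0 / h * L) = C0 / h * L * T.depth := by ring
    nlinarith
  · intro z hz x hxz i
    apply hflat
    intro j
    by_contra hcon
    push Not at hcon
    obtain ⟨hj1, hj2⟩ := hcon
    rw [lt_min_iff] at hxz
    obtain ⟨hd1, hd2⟩ := hxz
    have habs : |g j x| ≤ ε := abs_le.2 ⟨(ht1' j).trans hj1, hj2.trans (ht2' j)⟩
    have hl := hLip j x z habs hd1.le
    have hlt : L * dist x z < h := by
      rw [lt_div_iff₀ hL0] at hd2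
      linarith
    have := (abs_lt.1 (lt_of_le_of_lt hl hlt))
    rcases ht3 j z hz with h1 | h1
    · linarith [this.2]
    · linarith [this.1]

end Vale.Agent.P030.H580
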