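import Vale.Agent.P030.H580.Part

/-! # Lines and circles as walls (helper580)
-/

open MeasureTheory Set Filter Topology Complex

namespace Vale.Agent.P030.H580

/-- a wall: the line `a Re z + b Im z = t`, or the circle of centre `c` and radius `r` -/
inductive Wall
  | line (a b t : ℝ)
  | circ (c : ℂ) (r : ℝ)

namespace Wall

/-- the wall function; positive outside of the circle -/
def fn : Wall → ℂ → ℝ
  | line a b t, z => a * z.re + b * z.im - t
  | circ c r, z => normSq (z - c) - r ^ 2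

lemma contDiff_fn (W : Wall) : ContDiff ℝ 1 W.fn := by
  cases W with
  | line a b t =>
    have h1 : ContDiff ℝ 1 fun z : ℂ => a * z.re + b * z.im - t :=
      ((contDiff_const.mul Complex.reCLM.contDiff).add
        (contDiff_const.mul Complex.imCLM.contDiff)).sub contDiff_const
    exact h1
  | circ c r =>
    have h1 : ContDiff ℝ 1 fun z : ℂ => (z - c).re * (z - c).re + (z - c).im * (z - c).im - r ^ 2 :=
      (((Complex.reCLM.contDiff.comp (contDiff_id.sub contDiff_const)).mul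
        (Complex.reCLM.contDiff.comp (contDiff_id.sub contDiff_const))).add
        ((Complex.imCLM.contDiff.comp (contDiff_id.sub contDiff_const)).mul
        (Complex.imCLM.contDiff.comp (contDiff_id.sub contDiff_const)))).sub contDiff_const
    exact h1

/-- a Lipschitz constant near the wall -/
noncomputable def lip : Wall → ℝ
  | line a b _ => |a| + |b|
  | circ _ r => 2 * (|r| + 1) + 1

lemma lip_nonneg (W : Wall) : 0 ≤ W.lip := by
  cases W <;> simp only [lip] <;> positivity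

lemma norm_sub_le_of_fn {c : ℂ} {r : ℝ} {z : ℂ} {ε : ℝ} (hε : ε ≤ 1)
    (h : |(circ c r).fn z| ≤ ε) : ‖z - c‖ ≤ |r| + 1 := by
  have h1 := (abs_le.1 h).2
  simp only [fn, normSq_eq_norm_sq] at h1
  have h2 : ‖z - c‖ ^ 2 ≤ (|r| + 1) ^ 2 := by
    nlinarith [sq_abs r, abs_nonneg r]
  exact abs_le_of_sq_le_sq' h2 (by positivity) |>.2

lemma lip_spec (W : Wall) {ε : ℝ} (hε : ε ≤ 1) (x z : ℂ) (h : |W.fn x| ≤ ε) (hd : dist x z ≤ 1) :
    |W.fn x - W.fn z| ≤ W.lip * dist x z := by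
  cases W with
  | line a b t =>
    simp only [fn, lip]
    have h1 : a * x.re + b * x.im - t - (a * z.re + b * z.im - t)
        = a * (x - z).re + b * (x - z).im := by
      simp only [sub_re, sub_im]; ring
    rw [h1, dist_eq_norm]
    calc |a * (x - z).re + b * (x - z).im| ≤ |a * (x - z).re| + |b * (x - z).im| := abs_add_le _ _
      _ = |a| * |(x - z).re| + |b| * |(x - z).im| := by rw [abs_mul, abs_mul]
      _ ≤ |a| * ‖x - z‖ + |b| * ‖x - z‖ := by
          gcongr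
          · exact abs_re_le_norm _
          · exact abs_im_le_norm _
      _ = _ := by ring
  | circ c r =>
    have hx := norm_sub_le_of_fn hε h
    simp only [fn, lip, normSq_eq_norm_sq]
    rw [dist_eq_norm] at *
    have h1 : ‖x - c‖ ^ 2 - r ^ 2 - (‖z - c‖ ^ 2 - r ^ 2)
        = (‖x - c‖ - ‖z - c‖) * (‖x - c‖ + ‖z - c‖) := by ring
    have h2 : |‖x - c‖ - ‖z - c‖| ≤ ‖x - z‖ := by
      have := abs_norm_sub_norm_le (x - c) (z - c)
      rwa [sub_sub_sub_cancel_right] at this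
    have h3 : ‖z - c‖ ≤ |r| + 1 + 1 := by
      have := norm_sub_le_norm_sub_add_norm_sub z x c
      rw [norm_sub_rev z x] at this
      linarith
    have h4 : |‖x - c‖ + ‖z - c‖| = ‖x - c‖ + ‖z - c‖ := abs_of_nonneg (by positivity)
    rw [h1, abs_mul, h4, mul_comm (2 * (|r| + 1) + 1)]
    exact mul_le_mul h2 (by linarith) (by positivity) (norm_nonneg _)

lemma norm_fderiv_fn_le (W : Wall) {ε : ℝ} (hε : ε < 1) (z : ℂ) (h : |W.fn z| ≤ ε) :
    ‖fderiv ℝ W.fn z‖ ≤ W.lip := by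
  -- the function is Lipschitz with constant `lip` near `z`
  have hop : ∀ᶠ y in 𝓝 z, |W.fn y| ≤ 1 := by
    have hc : Continuous fun y => |W.fn y| := W.contDiff_fn.continuous.abs
    have : ∀ᶠ y in 𝓝 z, |W.fn y| < 1 :=
      (hc.tendsto z).eventually (gt_mem_nhds (lt_of_le_of_lt h hε))
    exact this.mono fun _ h => h.le
  have hd : ∀ᶠ y in 𝓝 z, dist y z ≤ 1 := by
    filter_upwards [Metric.ball_mem_nhds z one_pos] with y hy
    exact (Metric.mem_ball.1 hy).le
  have hdiff : HasFDerivAt W.fn (fderiv ℝ W.fn z) z :=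
    (W.contDiff_fn.differentiable (by norm_num) z).hasFDerivAt
  refine hdiff.le_of_lip' W.lip_nonneg ?_
  filter_upwards [hop, hd] with y hy hyd
  have := lip_spec W le_rfl y z hy hyd
  rwa [Real.norm_eq_abs, ← dist_eq_norm]

/-- a common constant for finitely many walls -/
theorem exists_lip {κ : Type} [Fintype κ] (W : κ → Wall) {ε : ℝ} (hε : ε < 1) :
    ∃ L : ℝ, 0 < L ∧ (∀ j z, |(W j).fn z| ≤ ε → ‖fderiv ℝ (W j).fn z‖ ≤ L) ∧
      (∀ j x z, |(W j).fn x| ≤ ε → dist x z ≤ 1 →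
        |(W j).fn x - (W j).fn z| ≤ L * dist x z) := by
  refine ⟨1 + ∑ j, (W j).lip, ?_, ?_, ?_⟩
  · have : 0 ≤ ∑ j, (W j).lip := Finset.sum_nonneg fun j _ => (W j).lip_nonneg
    linarith
  · intro j z h
    have h1 : (W j).lip ≤ ∑ j, (W j).lip :=
      Finset.single_le_sum (f := fun j => (W j).lip) (fun j _ => (W j).lip_nonneg)
        (Finset.mem_univ j)
    linarith [norm_fderiv_fn_le (W j) hε z h]
  · intro j x z h hd
    have h1 : (W j).lip ≤ ∑ j, (W j).lip :=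
      Finset.single_le_sum (f := fun j => (W j).lip) (fun j _ => (W j).lip_nonneg)
        (Finset.mem_univ j)
    refine (lip_spec (W j) hε.le x z h hd).trans ?_
    exact mul_le_mul_of_nonneg_right (by linarith) dist_nonneg

end Wall

/-- **Partition of unity for walls which are lines and circles**; no Lipschitz hypotheses. -/
theorem exists_partition_walls {κ ι : Type} [DecidableEq ι] [Fintype ι] [Fintype κ]
    (T : WTree κ ι) (W : κ → Wall) {ε R1 : ℝ} (hε : 0 < ε) (hε1 : ε < 1)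
    (ie : ι) (hext : ∀ z : ℂ, R1 < ‖z‖ → ∀ i, i ≠ ie → z ∉ T.reg (fun j => (W j).fn) ε i) :
    ∃ C1 δ0 : ℝ, 0 < C1 ∧ 0 < δ0 ∧ ∀ K : ℕ, ∀ A : Finset ℂ, A.card ≤ K →
      ∃ θ : ι → ℂ → ℝ, (∀ i, ContDiff ℝ 1 (θ i)) ∧ (∀ i z, 0 ≤ θ i z) ∧
        (∀ z, ∑ i, θ i z = 1) ∧ (∀ i, tsupport (θ i) ⊆ T.reg (fun j => (W j).fn) ε i) ∧
        (∀ z ∈ A, ∃ i, z ∈ T.reg (fun j => (W j).fn) ε i ∧ θ i z = 1 ∧
          ∀ i', i' ≠ i → θ i' z = 0) ∧
        (∀ i z, ‖fderiv ℝ (θ i) z‖ ≤ C1 * (K + 1)) ∧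
        (∀ z ∈ A, ∀ x, dist x z < δ0 / (K + 1) → ∀ i, fderiv ℝ (θ i) x = 0) ∧
        (∀ x : ℂ, R1 < ‖x‖ → ∀ i, fderiv ℝ (θ i) x = 0) ∧
        (∀ x : ℂ, R1 < ‖x‖ → θ ie x = 1 ∧ ∀ i, i ≠ ie → θ i x = 0) := by
  obtain ⟨L, hL0, hLd, hLip⟩ := Wall.exists_lip W hε1
  obtain ⟨C1, hC1, H⟩ := exists_partition T (fun j => (W j).fn)
    (fun j => (W j).contDiff_fn) hε hL0 hLd hLip ie hext
  refine ⟨C1, min 1 (2 * ε / 3 / L), hC1, by positivity, fun K A hA => ?_⟩
  obtain ⟨θ, h1, h2, h3, h4, h5, h6, h7, h8, h9⟩ := H K A hA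
  refine ⟨θ, h1, h2, h3, h4, h5, h6, ?_, h8, h9⟩
  intro z hz x hx i
  refine h7 z hz x (hx.trans_le ?_) i
  have hK : (1 : ℝ) ≤ K + 1 := by linarith [(Nat.cast_nonneg K : (0 : ℝ) ≤ K)]
  rw [le_min_iff]
  constructor
  · rw [div_le_one (by linarith)]
    exact (min_le_left _ _).trans hK
  · rw [div_le_iff₀ (by linarith)]
    refine (min_le_right _ _).trans (le_of_eq ?_)
    field_simp

end Vale.Agent.P030.H580
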