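import Mathlib

/-! # Cauchy–Pompeiu formula on the plane (helper580, layer L1 of 352 #12618)

`dbar φ z = (1/2)(D φ z 1 + I D φ z I)`.  If `φ` is `C¹` on `ℂ`, tends to `c` at infinity and
`dbar φ` has compact support then
`φ a = c + ∫ ξ, (ξ - a)⁻¹ • (-(dbar φ ξ)/π)`. -/

open MeasureTheory Set Filter Topology Complex
open scoped Real

namespace Vale.Agent.P030.H580

variable {E : Type*} [NormedAddCommGroup E] [NormedSpace ℂ E]

/-- The `∂/∂ z̄` derivative. -/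
noncomputable def dbar (φ : ℂ → E) (z : ℂ) : E :=
  (1 / 2 : ℂ) • (fderiv ℝ φ z 1 + I • fderiv ℝ φ z I)

/-- The unit vector `e^{iθ}`. -/
noncomputable def uv (θ : ℝ) : ℂ := (Real.cos θ : ℂ) + (Real.sin θ : ℂ) * I

lemma uv_eq_exp (θ : ℝ) : uv θ = exp (θ * I) := by
  unfold uv
  rw [Complex.exp_mul_I]
  push_cast
  ring

lemma norm_uv (θ : ℝ) : ‖uv θ‖ = 1 := by
  rw [uv_eq_exp, Complex.norm_exp_ofReal_mul_I]

lemma uv_ne_zero (θ : ℝ) : uv θ ≠ 0 := by
  intro h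
  have := norm_uv θ
  rw [h] at this
  simp at this

lemma continuous_uv : Continuous uv := by
  unfold uv
  fun_prop

lemma hasDerivAt_uv (θ : ℝ) : HasDerivAt uv (I * uv θ) θ := by
  have h1 : HasDerivAt (fun θ : ℝ => ((Real.cos θ : ℝ) : ℂ)) (-(Real.sin θ : ℂ)) θ := by
    have := (Real.hasDerivAt_cos θ).ofReal_comp
    simpa using this
  have h2 : HasDerivAt (fun θ : ℝ => ((Real.sin θ : ℝ) : ℂ) * I) ((Real.cos θ : ℂ) * I) θ := by
    have := (Real.hasDerivAt_sin θ).ofReal_comp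
    simpa using this.mul_const I
  have h3 := h1.add h2
  have e : -(Real.sin θ : ℂ) + (Real.cos θ : ℂ) * I = I * uv θ := by
    unfold uv
    linear_combination (Real.sin θ : ℂ) * (-Complex.I_sq)
  rw [e] at h3
  exact h3

lemma uv_pi : uv π = uv (-π) := by
  unfold uv
  simp

/-- the integrand in polar coordinates -/
lemma dbar_polar (φ : ℂ → E) (z : ℂ) (θ : ℝ) :
    (uv θ)⁻¹ • dbar φ z = (1 / 2 : ℂ) • (fderiv ℝ φ z (uv θ) + I • fderiv ℝ φ z (I * uv θ)) := by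
  set L := fderiv ℝ φ z with hL
  have hlin : ∀ x y : ℝ, L ((x : ℂ) + (y : ℂ) * I) = (x : ℂ) • L 1 + (y : ℂ) • L I := by
    intro x y
    have e : ((x : ℂ) + (y : ℂ) * I) = x • (1 : ℂ) + y • I := by
      simp [Complex.real_smul]
    rw [e, map_add, map_smul, map_smul]
    simp [Complex.coe_smul]
  have h1 : L (uv θ) = (Real.cos θ : ℂ) • L 1 + (Real.sin θ : ℂ) • L I := hlin _ _
  have h2 : L (I * uv θ) = (-(Real.sin θ) : ℂ) • L 1 + (Real.cos θ : ℂ) • L I := by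
    have e : I * uv θ = ((-(Real.sin θ) : ℝ) : ℂ) + ((Real.cos θ : ℝ) : ℂ) * I := by
      unfold uv
      rw [Complex.ofReal_neg]
      linear_combination ((Real.sin θ : ℝ) : ℂ) * (Complex.I_sq)
    rw [e, hlin, Complex.ofReal_neg]
  rw [h1, h2]
  unfold dbar
  rw [← hL]
  have hinv : (uv θ)⁻¹ = (Real.cos θ : ℂ) - (Real.sin θ : ℂ) * I := by
    rw [inv_eq_iff_eq_inv, eq_comm, inv_eq_of_mul_eq_one_left]
    unfold uv
    have := Real.cos_sq_add_sin_sq θ
    have h' : ((Real.cos θ : ℝ) : ℂ) ^ 2 + ((Real.sin θ : ℝ) : ℂ) ^ 2 = 1 := by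
      exact_mod_cast this
    linear_combination h' - (Real.sin θ : ℂ) ^ 2 * Complex.I_sq
  rw [hinv]
  generalize ((Real.cos θ : ℝ) : ℂ) = c
  generalize ((Real.sin θ : ℝ) : ℂ) = s
  match_scalars
  · ring
  · linear_combination (-(1 / 2) * s) * Complex.I_sq

lemma continuous_fderiv_apply (φ : ℂ → E) (hφ : ContDiff ℝ 1 φ) (a : ℂ) {v : ℝ × ℝ → ℂ}
    (hv : Continuous v) :
    Continuous fun p : ℝ × ℝ => fderiv ℝ φ (a + (p.1 : ℂ) * uv p.2) (v p) := by
  have h1 : Continuous (fderiv ℝ φ) := hφ.continuous_fderiv (by norm_num)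
  have h2 : Continuous fun p : ℝ × ℝ => a + (p.1 : ℂ) * uv p.2 :=
    continuous_const.add ((Complex.continuous_ofReal.comp continuous_fst).mul
      (continuous_uv.comp continuous_snd))
  exact (h1.comp h2).clm_apply hv

/-- the angular derivative integrates to zero -/
lemma integral_angular [CompleteSpace E] (φ : ℂ → E) (hφ : ContDiff ℝ 1 φ) (a : ℂ) {r : ℝ}
    (hr : 0 < r) :
    ∫ θ in Ioc (-π) π, fderiv ℝ φ (a + (r : ℂ) * uv θ) (I * uv θ) = 0 := by
  rw [← intervalIntegral.integral_of_le (by linarith [Real.pi_pos])]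
  have hd : ∀ θ ∈ uIcc (-π) π, HasDerivAt (fun θ : ℝ => φ (a + (r : ℂ) * uv θ))
      (fderiv ℝ φ (a + (r : ℂ) * uv θ) ((r : ℂ) * (I * uv θ))) θ := by
    intro θ _
    have h1 : HasDerivAt (fun θ : ℝ => a + (r : ℂ) * uv θ) ((r : ℂ) * (I * uv θ)) θ :=
      ((hasDerivAt_uv θ).const_mul (r : ℂ)).const_add a
    have h2 : HasFDerivAt φ (fderiv ℝ φ (a + (r : ℂ) * uv θ)) (a + (r : ℂ) * uv θ) :=
      (hφ.differentiable (by norm_num)).differentiableAt.hasFDerivAt
    exact h2.comp_hasDerivAt θ h1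
  have hc : Continuous fun θ : ℝ => fderiv ℝ φ (a + (r : ℂ) * uv θ) ((r : ℂ) * (I * uv θ)) := by
    have := (continuous_fderiv_apply φ hφ a (v := fun p => (r : ℂ) * (I * uv p.2))
      (continuous_const.mul (continuous_const.mul (continuous_uv.comp continuous_snd)))).comp
      (Continuous.prodMk (continuous_const (y := r)) (continuous_id (X := ℝ)))
    exact this
  have hint := intervalIntegral.integral_eq_sub_of_hasDerivAt hd (hc.intervalIntegrable _ _)
  have e : ∀ θ : ℝ, fderiv ℝ φ (a + (r : ℂ) * uv θ) ((r : ℂ) * (I * uv θ))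
      = r • fderiv ℝ φ (a + (r : ℂ) * uv θ) (I * uv θ) := by
    intro θ
    rw [show ((r : ℂ) * (I * uv θ)) = r • (I * uv θ) from (Complex.real_smul).symm, map_smul]
  simp_rw [e] at hint
  rw [intervalIntegral.integral_smul, uv_pi, sub_self] at hint
  exact (smul_eq_zero.1 hint).resolve_left hr.ne'

/-- the radial derivative -/
lemma integral_radial [CompleteSpace E] (φ : ℂ → E) (hφ : ContDiff ℝ 1 φ) (a : ℂ) {R : ℝ}
    (hR : 0 ≤ R) (θ : ℝ) :
    ∫ r in Ioc 0 R, fderiv ℝ φ (a + (r : ℂ) * uv θ) (uv θ) = φ (a + (R : ℂ) * uv θ) - φ a := by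
  rw [← intervalIntegral.integral_of_le hR]
  have hd : ∀ r ∈ uIcc 0 R, HasDerivAt (fun r : ℝ => φ (a + (r : ℂ) * uv θ))
      (fderiv ℝ φ (a + (r : ℂ) * uv θ) (uv θ)) r := by
    intro r _
    have h1 : HasDerivAt (fun r : ℝ => a + (r : ℂ) * uv θ) (uv θ) r := by
      have h0 : HasDerivAt (fun r : ℝ => (r : ℂ)) 1 r := by
        simpa using (hasDerivAt_id r).ofReal_comp
      simpa using (h0.mul_const (uv θ)).const_add a
    have h2 : HasFDerivAt φ (fderiv ℝ φ (a + (r : ℂ) * uv θ)) (a + (r : ℂ) * uv θ) :=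
      (hφ.differentiable (by norm_num)).differentiableAt.hasFDerivAt
    exact h2.comp_hasDerivAt r h1
  have hc : Continuous fun r : ℝ => fderiv ℝ φ (a + (r : ℂ) * uv θ) (uv θ) := by
    have := (continuous_fderiv_apply φ hφ a (v := fun p => uv p.2)
      (continuous_uv.comp continuous_snd)).comp
      (Continuous.prodMk (continuous_id (X := ℝ)) (continuous_const (y := θ)))
    exact this
  have hint := intervalIntegral.integral_eq_sub_of_hasDerivAt hd (hc.intervalIntegrable _ _)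
  rw [hint]
  simp

/-- the Cauchy–Green formula on the disc of radius `R` about `a` in polar coordinates -/
lemma integral_polar [CompleteSpace E] (φ : ℂ → E) (hφ : ContDiff ℝ 1 φ) (a : ℂ) {R : ℝ}
    (hR : 0 ≤ R) :
    ∫ p in (Ioc 0 R) ×ˢ (Ioc (-π) π), (uv p.2)⁻¹ • dbar φ (a + (p.1 : ℂ) * uv p.2)
      = (1 / 2 : ℂ) • ∫ θ in Ioc (-π) π, (φ (a + (R : ℂ) * uv θ) - φ a) := by
  set A : ℝ × ℝ → E := fun p => fderiv ℝ φ (a + (p.1 : ℂ) * uv p.2) (uv p.2) with hA
  set B : ℝ × ℝ → E := fun p => fderiv ℝ φ (a + (p.1 : ℂ) * uv p.2) (I * uv p.2) with hB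
  have hAc : Continuous A := continuous_fderiv_apply φ hφ a (continuous_uv.comp continuous_snd)
  have hBc : Continuous B := continuous_fderiv_apply φ hφ a
    (continuous_const.mul (continuous_uv.comp continuous_snd))
  have hsub : (Ioc 0 R) ×ˢ (Ioc (-π) π) ⊆ (Icc 0 R) ×ˢ (Icc (-π) π) :=
    prod_mono Ioc_subset_Icc_self Ioc_subset_Icc_self
  have hcomp : IsCompact ((Icc (0 : ℝ) R) ×ˢ (Icc (-π) π)) := isCompact_Icc.prod isCompact_Icc
  have hAi : IntegrableOn A ((Ioc 0 R) ×ˢ (Ioc (-π) π)) :=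
    (hAc.continuousOn.integrableOn_compact hcomp).mono_set hsub
  have hBi : IntegrableOn B ((Ioc 0 R) ×ˢ (Ioc (-π) π)) :=
    (hBc.continuousOn.integrableOn_compact hcomp).mono_set hsub
  have hIA : ∫ p in (Ioc 0 R) ×ˢ (Ioc (-π) π), A p
      = ∫ θ in Ioc (-π) π, (φ (a + (R : ℂ) * uv θ) - φ a) := by
    have h1 : ∫ p in (Ioc 0 R) ×ˢ (Ioc (-π) π), A p
        = ∫ p in (Ioc (-π) π) ×ˢ (Ioc 0 R), A p.swap := by
      rw [Measure.volume_eq_prod]
      exact (setIntegral_prod_swap (μ := volume) (ν := volume) _ _ A).symm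
    have hAs : IntegrableOn (fun p : ℝ × ℝ => A p.swap) ((Ioc (-π) π) ×ˢ (Ioc 0 R)) := by
      refine ((hAc.comp continuous_swap).continuousOn.integrableOn_compact
        (isCompact_Icc.prod isCompact_Icc)).mono_set
        (prod_mono Ioc_subset_Icc_self Ioc_subset_Icc_self)
    rw [h1, Measure.volume_eq_prod, setIntegral_prod _ (by rwa [Measure.volume_eq_prod] at hAs)]
    refine setIntegral_congr_fun measurableSet_Ioc fun θ _ => ?_
    exact integral_radial φ hφ a hR θ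
  have hIB : ∫ p in (Ioc 0 R) ×ˢ (Ioc (-π) π), B p = 0 := by
    rw [Measure.volume_eq_prod, setIntegral_prod _ (by rwa [Measure.volume_eq_prod] at hBi)]
    rw [setIntegral_congr_fun measurableSet_Ioc (g := fun _ => (0 : E))]
    · simp
    · intro r hr
      exact integral_angular φ hφ a hr.1
  have e : ∀ p : ℝ × ℝ, (uv p.2)⁻¹ • dbar φ (a + (p.1 : ℂ) * uv p.2)
      = (1 / 2 : ℂ) • (A p + I • B p) := fun p => dbar_polar φ _ _
  simp_rw [e]
  have hadd : ∫ p in (Ioc 0 R) ×ˢ (Ioc (-π) π), (A p + I • B p)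
      = (∫ p in (Ioc 0 R) ×ˢ (Ioc (-π) π), A p) + ∫ p in (Ioc 0 R) ×ˢ (Ioc (-π) π), I • B p :=
    integral_add hAi (hBi.smul I)
  rw [integral_smul, hadd, integral_smul, hIA, hIB]
  simp

/-- **Cauchy–Pompeiu formula** in the whole plane. -/
theorem pompeiu_aux [CompleteSpace E] (φ : ℂ → E) (hφ : ContDiff ℝ 1 φ) (c : E)
    (hc : Tendsto φ (cocompact ℂ) (𝓝 c)) (hs : HasCompactSupport (dbar φ)) (a : ℂ) :
    ∫ ξ : ℂ, ξ⁻¹ • dbar φ (a + ξ) = (π : ℂ) • (c - φ a) := by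
  -- radius of the support
  obtain ⟨R0, hR0⟩ : ∃ R0 : ℝ, ∀ z : ℂ, R0 < ‖z‖ → dbar φ (a + z) = 0 := by
    obtain ⟨R, hR⟩ := hs.isCompact.isBounded.subset_closedBall (0 : ℂ)
    refine ⟨R + ‖a‖, fun z hz => ?_⟩
    by_contra hne
    have h1 : a + z ∈ tsupport (dbar φ) := subset_tsupport _ hne
    have h2 := hR h1
    rw [mem_closedBall_zero_iff] at h2
    have h3 : ‖z‖ ≤ ‖a + z‖ + ‖a‖ := by
      calc ‖z‖ = ‖(a + z) - a‖ := by ring_nf
        _ ≤ ‖a + z‖ + ‖a‖ := norm_sub_le _ _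
    linarith
  have key : ∀ R : ℝ, R0 ≤ R → 0 ≤ R → ∫ ξ : ℂ, ξ⁻¹ • dbar φ (a + ξ)
      = (1 / 2 : ℂ) • ∫ θ in Ioc (-π) π, (φ (a + (R : ℂ) * uv θ) - φ a) := by
    intro R hR hR'
    rw [← integral_polar φ hφ a hR', ← Complex.integral_comp_polarCoord_symm]
    have h1 : ∫ p in Complex.polarCoord.target,
        p.1 • ((Complex.polarCoord.symm p)⁻¹ • dbar φ (a + Complex.polarCoord.symm p))
        = ∫ p in (Ioi (0 : ℝ)) ×ˢ (Ioo (-π) π), (uv p.2)⁻¹ • dbar φ (a + (p.1 : ℂ) * uv p.2) := by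
      rw [Complex.polarCoord_target]
      refine setIntegral_congr_fun (measurableSet_Ioi.prod measurableSet_Ioo) fun p hp => ?_
      have hp0 : (p.1 : ℂ) ≠ 0 := by
        have : 0 < p.1 := hp.1
        exact_mod_cast this.ne'
      have e : Complex.polarCoord.symm p = (p.1 : ℂ) * uv p.2 := by
        rw [Complex.polarCoord_symm_apply]
        rfl
      simp only [e]
      rw [← Complex.coe_smul, smul_smul, mul_inv, ← mul_assoc, mul_inv_cancel₀ hp0, one_mul]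
    change ∫ p in Complex.polarCoord.target, _ = _
    rw [h1]
    have h2 : ((Ioi (0 : ℝ)) ×ˢ (Ioo (-π) π) : Set (ℝ × ℝ)) =ᵐ[volume]
        ((Ioi (0 : ℝ)) ×ˢ (Ioc (-π) π) : Set (ℝ × ℝ)) := by
      rw [Measure.volume_eq_prod]
      exact Measure.set_prod_ae_eq (ae_eq_refl _) Ioo_ae_eq_Ioc
    rw [setIntegral_congr_set h2]
    refine setIntegral_eq_of_subset_of_forall_sdiff_eq_zero
      (measurableSet_Ioi.prod measurableSet_Ioc)
      (prod_mono Ioc_subset_Ioi_self le_rfl) ?_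
    rintro ⟨r, θ⟩ ⟨⟨hr, hθ⟩, hn⟩
    have hr' : R < r := by
      by_contra hle
      exact hn ⟨⟨hr, not_lt.1 hle⟩, hθ⟩
    have hr0 : 0 < r := hr
    have : dbar φ (a + (r : ℂ) * uv θ) = 0 := by
      apply hR0
      rw [norm_mul, norm_uv, mul_one, Complex.norm_real, Real.norm_eq_abs, abs_of_pos hr0]
      linarith
    simp only [this, smul_zero]
  -- limit
  have hlim : Tendsto (fun R : ℝ => (1 / 2 : ℂ) • ∫ θ in Ioc (-π) π, (φ (a + (R : ℂ) * uv θ) - φ a))
      atTop (𝓝 ((1 / 2 : ℂ) • ∫ _θ in Ioc (-π) π, (c - φ a))) := by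
    refine Tendsto.const_smul ?_ _
    rw [Metric.tendsto_nhds]
    intro ε hε
    have hε' : 0 < ε / (2 * π + 1) := by positivity
    obtain ⟨R1, hR1⟩ : ∃ R1 : ℝ, ∀ z : ℂ, R1 < ‖z‖ → ‖φ z - c‖ < ε / (2 * π + 1) := by
      have h1 := (Metric.tendsto_nhds.1 hc) _ hε'
      rw [Filter.Eventually, Metric.mem_cocompact_iff_closedBall_compl_subset (0 : ℂ)] at h1
      obtain ⟨R1, h2⟩ := h1
      refine ⟨R1, fun z hz => ?_⟩
      have h3 : z ∈ (Metric.closedBall (0 : ℂ) R1)ᶜ := by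
        rw [mem_compl_iff, mem_closedBall_zero_iff, not_le]
        exact hz
      have := h2 h3
      rwa [mem_ofPred_eq, dist_eq_norm] at this
    filter_upwards [eventually_gt_atTop (max 0 (R1 + ‖a‖))] with R hR
    have hR0' : 0 < R := lt_of_le_of_lt (le_max_left _ _) hR
    have hR1' : R1 + ‖a‖ < R := lt_of_le_of_lt (le_max_right _ _) hR
    have hφc : Continuous fun θ : ℝ => φ (a + (R : ℂ) * uv θ) :=
      hφ.continuous.comp (continuous_const.add (continuous_const.mul continuous_uv))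
    have hi1 : IntegrableOn (fun θ : ℝ => φ (a + (R : ℂ) * uv θ) - φ a) (Ioc (-π) π) :=
      ((hφc.sub continuous_const).continuousOn.integrableOn_compact isCompact_Icc).mono_set
        Ioc_subset_Icc_self
    have hi2 : IntegrableOn (fun _ : ℝ => c - φ a) (Ioc (-π) π) :=
      integrableOn_const (by simp)
    rw [dist_eq_norm, ← integral_sub hi1 hi2]
    have hb : ∀ θ ∈ Ioc (-π) π, ‖(φ (a + (R : ℂ) * uv θ) - φ a) - (c - φ a)‖ ≤ ε / (2 * π + 1) := by
      intro θ _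
      have e : (φ (a + (R : ℂ) * uv θ) - φ a) - (c - φ a) = φ (a + (R : ℂ) * uv θ) - c := by abel
      rw [e]
      refine (hR1 _ ?_).le
      have h3 : ‖(R : ℂ) * uv θ‖ ≤ ‖a + (R : ℂ) * uv θ‖ + ‖a‖ := by
        calc ‖(R : ℂ) * uv θ‖ = ‖(a + (R : ℂ) * uv θ) - a‖ := by ring_nf
          _ ≤ _ := norm_sub_le _ _
      have h4 : ‖(R : ℂ) * uv θ‖ = R := by
        rw [norm_mul, norm_uv, mul_one, Complex.norm_real, Real.norm_eq_abs, abs_of_pos hR0']
      linarith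
    have hle := norm_setIntegral_le_of_norm_le_const (μ := volume) (s := Ioc (-π) π)
      (by simp) hb
    refine hle.trans_lt ?_
    rw [measureReal_def, Real.volume_Ioc, ENNReal.toReal_ofReal (by linarith [Real.pi_pos])]
    have hpi := Real.pi_pos
    have e2 : ε / (2 * π + 1) * (π - -π) = ε * ((2 * π) / (2 * π + 1)) := by ring
    rw [e2]
    have : (2 * π) / (2 * π + 1) < 1 := by
      rw [div_lt_one (by linarith)]
      linarith
    nlinarith
  have hconst : Tendsto (fun R : ℝ => (1 / 2 : ℂ) • ∫ θ in Ioc (-π) π,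
      (φ (a + (R : ℂ) * uv θ) - φ a)) atTop (𝓝 (∫ ξ : ℂ, ξ⁻¹ • dbar φ (a + ξ))) := by
    refine tendsto_const_nhds.congr' ?_
    filter_upwards [eventually_ge_atTop (max 0 R0)] with R hR
    exact key R ((le_max_right _ _).trans hR) ((le_max_left _ _).trans hR)
  have := tendsto_nhds_unique hconst hlim
  rw [this, setIntegral_const, measureReal_def, Real.volume_Ioc,
    ENNReal.toReal_ofReal (by linarith [Real.pi_pos])]
  rw [← Complex.coe_smul, smul_smul]
  congr 1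
  push_cast
  ring

/-- **Cauchy–Pompeiu formula**: `φ a = c + ∫ J(ξ)/(ξ - a)`, `J = -(dbar φ)/π`. -/
theorem pompeiu [CompleteSpace E] (φ : ℂ → E) (hφ : ContDiff ℝ 1 φ) (c : E)
    (hc : Tendsto φ (cocompact ℂ) (𝓝 c)) (hs : HasCompactSupport (dbar φ)) (a : ℂ) :
    φ a = c + ∫ ξ : ℂ, (ξ - a)⁻¹ • (-(π : ℂ)⁻¹ • dbar φ ξ) := by
  have h := pompeiu_aux φ hφ c hc hs a
  have e1 : ∫ ξ : ℂ, (ξ - a)⁻¹ • (-(π : ℂ)⁻¹ • dbar φ ξ)
      = ∫ ξ : ℂ, (-(π : ℂ)⁻¹) • (ξ⁻¹ • dbar φ (a + ξ)) := by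
    rw [← integral_sub_right_eq_self (fun ξ : ℂ => (-(π : ℂ)⁻¹) • (ξ⁻¹ • dbar φ (a + ξ))) a]
    refine integral_congr_ae (Eventually.of_forall fun ξ => ?_)
    simp only
    rw [smul_comm, add_sub_cancel]
  rw [e1, integral_smul, h, smul_smul]
  have hpi : (π : ℂ) ≠ 0 := by exact_mod_cast Real.pi_ne_zero
  rw [neg_mul, inv_mul_cancel₀ hpi]
  simp

end Vale.Agent.P030.H580
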