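import Vale.Agent.P030.H580.Vx
import Vale.Agent.P030.H787.PGVec

/-! # The cusp expansions of the flat vectors on the lower half plane and on the strips (helper580)

`TY c`, `tY c` = logarithm and local parameter of the cusp `c` in the `y`-plane, the logarithm with
its cut on the vertical ray above the cusp. -/

open Set Filter Topology
open scoped ComplexConjugate

namespace Vale.Agent.P030.H580

open Vale.Agent.P030.AR Vale.Agent.P030.H787

noncomputable section

/-- local parameters in `y` -/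
def tY : Fin 4 → ℂ → ℂ
  | 0 => fun y => (y + 1) / (y - 1)
  | 1 => fun y => y
  | 2 => fun y => (y - 1) / (y + 1)
  | 3 => fun y => 1 / y

/-- logarithms in `y` -/
def TY : Fin 4 → ℂ → ℂ
  | 0 => fun y => Complex.log (Complex.I * (y + 1)) + Complex.I * (Real.pi / 2)
      - Complex.log (1 - y)
  | 1 => fun y => Complex.log (Complex.I * y) + Complex.I * (Real.pi / 2)
  | 2 => fun y => Complex.log (Complex.I * (y - 1)) + Complex.I * (Real.pi / 2)
      - Complex.log (1 + y)
  | 3 => fun y => -(Complex.log (Complex.I * y) + Complex.I * (Real.pi / 2))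

/-- the regions -/
def RY : Fin 4 → Set ℂ
  | 0 => {y | y.re < 0 ∧ (y.im < 0 ∨ y.re ≠ -1)}
  | 1 => {y | ‖y‖ < 1 ∧ (y.im < 0 ∨ y.re ≠ 0)}
  | 2 => {y | 0 < y.re ∧ (y.im < 0 ∨ y.re ≠ 1)}
  | 3 => {y | 1 < ‖y‖ ∧ (y.im < 0 ∨ 1 < |y.re|)}

/-- the germs -/
def glc : Fin 4 → ℂ → ℂ → Fin 8 → Fin 8 → ℂ := ![gl0, gl1, gl2, gl3]

lemma log_unique {a w : ℂ} (h : Complex.exp a = w) (hw : 0 < w.im) (h1 : -Real.pi < a.im)
    (h2 : a.im < 2 * Real.pi) : a = Complex.log w := by
  have hw0 : w ≠ 0 := by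
    rintro rfl
    simp at hw
  have harg : 0 < w.arg ∧ w.arg < Real.pi := by
    refine ⟨?_, ?_⟩
    · rcases (Complex.arg_nonneg_iff.2 hw.le).eq_or_lt with h0 | h0
      · exfalso
        have := Complex.arg_eq_zero_iff.1 h0.symm
        linarith [this.2]
      · exact h0
    · refine lt_of_le_of_ne (Complex.arg_le_pi w) fun h0 => ?_
      have := (Complex.arg_eq_pi_iff.1 h0).2
      linarith
  have h3 : Complex.exp a = Complex.exp (Complex.log w) := by rw [h, Complex.exp_log hw0]
  obtain ⟨n, hn⟩ := Complex.exp_eq_exp_iff_exists_int.1 h3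
  have him := congrArg Complex.im hn
  have him2 : a.im = w.arg + n * (2 * Real.pi) := by
    rw [him, Complex.add_im, Complex.log_im]
    congr 1
    simp [Complex.mul_im]
  have hn0 : n = 0 := by
    have h4 : (n : ℝ) * (2 * Real.pi) < 1 * (2 * Real.pi) := by linarith [harg.1]
    have h5 : (-1 : ℝ) * (2 * Real.pi) < n * (2 * Real.pi) := by linarith [harg.2]
    have hpi : 0 < 2 * Real.pi := by positivity
    have h6 := lt_of_mul_lt_mul_right h4 hpi.le
    have h7 := lt_of_mul_lt_mul_right h5 hpi.le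
    have h8 : n < 1 := by exact_mod_cast h6
    have h9 : -1 < n := by exact_mod_cast h7
    omega
  rw [hn, hn0]
  simp

/-- the two half planes -/
lemma arg_re_pos {z : ℂ} (h : 0 < z.re) : -(Real.pi / 2) < (Complex.log z).im ∧
    (Complex.log z).im < Real.pi / 2 := by
  rw [Complex.log_im]
  exact abs_lt.1 (Complex.abs_arg_lt_pi_div_two_iff.2 (Or.inl h))

lemma arg_re_pos_im_pos {z : ℂ} (_h : 0 < z.re) (h' : 0 < z.im) : 0 < (Complex.log z).im := by
  rw [Complex.log_im]
  rcases (Complex.arg_nonneg_iff.2 h'.le).eq_or_lt with h0 | h0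
  · exfalso
    have := Complex.arg_eq_zero_iff.1 h0.symm
    linarith [this.2]
  · exact h0

lemma exp_I_pi_div_two : Complex.exp (Complex.I * (Real.pi / 2)) = Complex.I := by
  rw [mul_comm]
  exact Complex.exp_pi_div_two_mul_I

lemma re_I_mul (z : ℂ) : (Complex.I * z).re = -z.im := by simp
lemma im_I_mul (z : ℂ) : (Complex.I * z).im = z.re := by simp

lemma im_pi_half : (Complex.I * ((Real.pi : ℂ) / 2)).im = Real.pi / 2 := by
  rw [im_I_mul]
  simp

lemma TY0_low {y : ℂ} (h : y.im < 0) (h' : y.re < 0) : TY 0 y = Complex.log (uy y) := by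
  have hr1 : 0 < (Complex.I * (y + 1)).re := by
    rw [re_I_mul]
    simp only [Complex.add_im, Complex.one_im]
    linarith
  have hr2 : 0 < (1 - y).re := by
    simp only [Complex.sub_re, Complex.one_re]
    linarith
  have hi2 : 0 < (1 - y).im := by
    simp only [Complex.sub_im, Complex.one_im]
    linarith
  have ha1 := arg_re_pos hr1
  have ha2 := arg_re_pos hr2
  have ha3 := arg_re_pos_im_pos hr2 hi2
  have hne1 : Complex.I * (y + 1) ≠ 0 := by
    intro h0
    rw [h0] at hr1
    simp at hr1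
  have hne2 : 1 - y ≠ 0 := by
    intro h0
    rw [h0] at hr2
    simp at hr2
  have him : (TY 0 y).im = (Complex.log (Complex.I * (y + 1))).im + Real.pi / 2
      - (Complex.log (1 - y)).im := by
    change (Complex.log (Complex.I * (y + 1)) + Complex.I * (Real.pi / 2)
      - Complex.log (1 - y)).im = _
    rw [Complex.sub_im, Complex.add_im, im_pi_half]
  apply log_unique
  · change Complex.exp (Complex.log (Complex.I * (y + 1)) + Complex.I * (Real.pi / 2)
      - Complex.log (1 - y)) = _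
    rw [Complex.exp_sub, Complex.exp_add, Complex.exp_log hne1, Complex.exp_log hne2,
      exp_I_pi_div_two]
    unfold uy
    have hne3 : y - 1 ≠ 0 := fun h0 => hne2 (by rw [← neg_sub, h0, neg_zero])
    field_simp
    rw [Complex.I_sq]
    ring
  · exact uy_im_pos h
  · rw [him]
    linarith [Real.pi_pos]
  · rw [him]
    linarith [Real.pi_pos]

lemma TY1_low {y : ℂ} (h : y.im < 0) : TY 1 y = Complex.log (-y) := by
  have hr1 : 0 < (Complex.I * y).re := by
    rw [re_I_mul]
    linarith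
  have ha1 := arg_re_pos hr1
  have hne1 : Complex.I * y ≠ 0 := by
    intro h0
    rw [h0] at hr1
    simp at hr1
  have him : (TY 1 y).im = (Complex.log (Complex.I * y)).im + Real.pi / 2 := by
    change (Complex.log (Complex.I * y) + Complex.I * (Real.pi / 2)).im = _
    rw [Complex.add_im, im_pi_half]
  apply log_unique
  · change Complex.exp (Complex.log (Complex.I * y) + Complex.I * (Real.pi / 2)) = _
    rw [Complex.exp_add, Complex.exp_log hne1, exp_I_pi_div_two]
    have := Complex.I_sq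
    linear_combination y * this
  · simp only [Complex.neg_im]
    linarith
  · rw [him]
    linarith [Real.pi_pos]
  · rw [him]
    linarith [Real.pi_pos]

lemma TY2_low {y : ℂ} (h : y.im < 0) (h' : 0 < y.re) :
    TY 2 y = Complex.log (-((y - 1) / (y + 1))) := by
  have hr1 : 0 < (Complex.I * (y - 1)).re := by
    rw [re_I_mul]
    simp only [Complex.sub_im, Complex.one_im]
    linarith
  have hr2 : 0 < (1 + y).re := by
    simp only [Complex.add_re, Complex.one_re]
    linarith
  have ha1 := arg_re_pos hr1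
  have ha2 := arg_re_pos hr2
  have hne1 : Complex.I * (y - 1) ≠ 0 := by
    intro h0
    rw [h0] at hr1
    simp at hr1
  have hne2 : 1 + y ≠ 0 := by
    intro h0
    rw [h0] at hr2
    simp at hr2
  have him : (TY 2 y).im = (Complex.log (Complex.I * (y - 1))).im + Real.pi / 2
      - (Complex.log (1 + y)).im := by
    change (Complex.log (Complex.I * (y - 1)) + Complex.I * (Real.pi / 2)
      - Complex.log (1 + y)).im = _
    rw [Complex.sub_im, Complex.add_im, im_pi_half]
  apply log_unique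
  · change Complex.exp (Complex.log (Complex.I * (y - 1)) + Complex.I * (Real.pi / 2)
      - Complex.log (1 + y)) = _
    rw [Complex.exp_sub, Complex.exp_add, Complex.exp_log hne1, Complex.exp_log hne2,
      exp_I_pi_div_two]
    have hne3 : y + 1 ≠ 0 := by rwa [add_comm]
    field_simp
    rw [Complex.I_sq]
    ring
  · have hne3 : y + 1 ≠ 0 := by rwa [add_comm]
    have hn := Complex.normSq_pos.2 hne3
    have : (-((y - 1) / (y + 1))).im = -2 * y.im / Complex.normSq (y + 1) := by
      rw [Complex.neg_im, Complex.div_im]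
      simp only [Complex.add_im, Complex.add_re, Complex.sub_re, Complex.sub_im, Complex.one_re,
        Complex.one_im]
      ring
    rw [this]
    apply div_pos _ hn
    linarith
  · rw [him]
    linarith [Real.pi_pos]
  · rw [him]
    linarith [Real.pi_pos]

lemma TY3_low {y : ℂ} (h : y.im < 0) : TY 3 y = Complex.log (-(1 / y)) := by
  have hr1 : 0 < (Complex.I * y).re := by
    rw [re_I_mul]
    linarith
  have ha1 := arg_re_pos hr1
  have hne1 : Complex.I * y ≠ 0 := by
    intro h0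
    rw [h0] at hr1
    simp at hr1
  have hy : y ≠ 0 := right_ne_zero_of_mul hne1
  have him : (TY 3 y).im = -((Complex.log (Complex.I * y)).im + Real.pi / 2) := by
    change (-(Complex.log (Complex.I * y) + Complex.I * (Real.pi / 2))).im = _
    rw [Complex.neg_im, Complex.add_im, im_pi_half]
  have hexp : Complex.exp (TY 3 y) = -(1 / y) := by
    change Complex.exp (-(Complex.log (Complex.I * y) + Complex.I * (Real.pi / 2))) = _
    rw [Complex.exp_neg, Complex.exp_add, Complex.exp_log hne1, exp_I_pi_div_two]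
    field_simp
    rw [Complex.I_sq]
    norm_num
  rw [← hexp, Complex.log_exp]
  · rw [him]
    linarith [Real.pi_pos]
  · rw [him]
    linarith [Real.pi_pos]

/-! ### the identity on the lower half plane -/

section

variable {V : Fin 8 → ℂ → Fin 8 → ℂ} {W : Fin 4 → Fin 8 → ℂ → Fin 8 → ℂ}

lemma norm_uy_lt {y : ℂ} (h : y.re < 0) : ‖uy y‖ < 1 := by
  unfold uy
  rw [norm_div]
  have h1 : ‖y + 1‖ < ‖y - 1‖ := by
    refine lt_of_pow_lt_pow_left₀ 2 (norm_nonneg _) ?_
    rw [← Complex.normSq_eq_norm_sq, ← Complex.normSq_eq_norm_sq, Complex.normSq_apply,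
      Complex.normSq_apply]
    simp only [Complex.add_im, Complex.add_re, Complex.sub_re, Complex.sub_im, Complex.one_re,
      Complex.one_im]
    nlinarith
  rw [div_lt_one (lt_of_le_of_lt (norm_nonneg _) h1)]
  exact h1

lemma norm_t2_lt {y : ℂ} (h : 0 < y.re) : ‖(y - 1) / (y + 1)‖ < 1 := by
  rw [norm_div]
  have h1 : ‖y - 1‖ < ‖y + 1‖ := by
    refine lt_of_pow_lt_pow_left₀ 2 (norm_nonneg _) ?_
    rw [← Complex.normSq_eq_norm_sq, ← Complex.normSq_eq_norm_sq, Complex.normSq_apply,
      Complex.normSq_apply]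
    simp only [Complex.add_im, Complex.add_re, Complex.sub_re, Complex.sub_im, Complex.one_re,
      Complex.one_im]
    nlinarith
  rw [div_lt_one (lt_of_le_of_lt (norm_nonneg _) h1)]
  exact h1

lemma uy_t1 {y : ℂ} (h : y ≠ 1) : (uy y + 1) / (uy y - 1) = y := by
  unfold uy
  have h1 : y - 1 ≠ 0 := sub_ne_zero.2 h
  have h2 : (y + 1) / (y - 1) + 1 = 2 * y / (y - 1) := by field_simp; ring
  have h3 : (y + 1) / (y - 1) - 1 = 2 / (y - 1) := by field_simp; ring
  rw [h2, h3]
  field_simp

lemma uy_t3 {y : ℂ} (h : y ≠ 1) (h0 : y ≠ 0) : (uy y - 1) / (uy y + 1) = 1 / y := by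
  unfold uy
  have h1 : y - 1 ≠ 0 := sub_ne_zero.2 h
  have h2 : (y + 1) / (y - 1) + 1 = 2 * y / (y - 1) := by field_simp; ring
  have h3 : (y + 1) / (y - 1) - 1 = 2 / (y - 1) := by field_simp; ring
  rw [h2, h3]
  field_simp

lemma uy_t2 (y : ℂ) : 1 / uy y = (y - 1) / (y + 1) := by
  unfold uy
  rw [one_div_div]

theorem V_gl_low (hV : IsV V) (c : Fin 4) (i : Fin 8) {y : ℂ} (hy : y ∈ RY c) (h : y.im < 0) :
    V i (uy y) = glc c (TY c y) (tY c y) i := by
  have hy1 : y ≠ 1 := by
    rintro rfl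
    simp at h
  have hy0 : y ≠ 0 := by
    rintro rfl
    simp at h
  have hup := uy_im_pos h
  fin_cases c
  · have hre : y.re < 0 := hy.1
    rw [hV.at0 _ hup (norm_uy_lt hre) i, ← TY0_low h hre]
    rfl
  · have hn : ‖y‖ < 1 := hy.1
    have hlt : ‖(uy y + 1) / (uy y - 1)‖ < 1 := by rwa [uy_t1 hy1]
    rw [hV.at1 _ hup hlt i, uy_t1 hy1, ← TY1_low h]
    rfl
  · have hre : 0 < y.re := hy.1
    have hlt : 1 < ‖uy y‖ := by
      have h1 := norm_t2_lt hre
      rw [← uy_t2, norm_div, norm_one] at h1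
      have h2 : 0 < ‖uy y‖ := by
        rw [norm_pos_iff]
        rintro h0
        have : (0 : ℝ) < (uy y).im := hup
        rw [h0] at this
        simp at this
      rwa [div_lt_one h2] at h1
    rw [hV.at2 _ hup hlt i, uy_t2, ← TY2_low h hre]
    rfl
  · have hn : 1 < ‖y‖ := hy.1
    have hlt : ‖(uy y - 1) / (uy y + 1)‖ < 1 := by
      rw [uy_t3 hy1 hy0, norm_div, norm_one, div_lt_one (by linarith)]
      exact hn
    rw [hV.at3 _ hup hlt i, uy_t3 hy1 hy0, ← TY3_low h]
    rfl

/-! ### the strips -/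

lemma slit_I {z : ℂ} (h : z.im < 0 ∨ z.re ≠ 0) : Complex.I * z ∈ Complex.slitPlane := by
  rw [Complex.mem_slitPlane_iff, re_I_mul, im_I_mul]
  rcases h with h | h
  · left; linarith
  · right; exact h

theorem diff_TY (c : Fin 4) : DifferentiableOn ℂ (TY c) (RY c) := by
  intro y hy
  apply DifferentiableAt.differentiableWithinAt
  fin_cases c
  · obtain ⟨h1, h2⟩ : y.re < 0 ∧ (y.im < 0 ∨ y.re ≠ -1) := hy
    have hs1 : Complex.I * (y + 1) ∈ Complex.slitPlane := by
      apply slit_I
      simp only [Complex.add_im, Complex.one_im, add_zero, Complex.add_re, Complex.one_re]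
      rcases h2 with h2 | h2
      · left; exact h2
      · right; intro h3; apply h2; linarith
    have hs2 : 1 - y ∈ Complex.slitPlane := by
      left
      simp only [Complex.sub_re, Complex.one_re]
      linarith
    have hd1 : DifferentiableAt ℂ (fun z : ℂ => Complex.I * (z + 1)) y := by fun_prop
    have hd2 : DifferentiableAt ℂ (fun z : ℂ => 1 - z) y := by fun_prop
    exact ((hd1.clog hs1).add_const _).sub (hd2.clog hs2)
  · obtain ⟨h1, h2⟩ : ‖y‖ < 1 ∧ (y.im < 0 ∨ y.re ≠ 0) := hy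
    have hd1 : DifferentiableAt ℂ (fun z : ℂ => Complex.I * z) y := by fun_prop
    exact (hd1.clog (slit_I h2)).add_const _
  · obtain ⟨h1, h2⟩ : 0 < y.re ∧ (y.im < 0 ∨ y.re ≠ 1) := hy
    have hs1 : Complex.I * (y - 1) ∈ Complex.slitPlane := by
      apply slit_I
      simp only [Complex.sub_im, Complex.one_im, sub_zero, Complex.sub_re, Complex.one_re]
      rcases h2 with h2 | h2
      · left; exact h2
      · right; intro h3; apply h2; linarith
    have hs2 : 1 + y ∈ Complex.slitPlane := by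
      left
      simp only [Complex.add_re, Complex.one_re]
      linarith
    have hd1 : DifferentiableAt ℂ (fun z : ℂ => Complex.I * (z - 1)) y := by fun_prop
    have hd2 : DifferentiableAt ℂ (fun z : ℂ => 1 + z) y := by fun_prop
    exact ((hd1.clog hs1).add_const _).sub (hd2.clog hs2)
  · obtain ⟨h1, h2⟩ : 1 < ‖y‖ ∧ (y.im < 0 ∨ 1 < |y.re|) := hy
    have hs : y.im < 0 ∨ y.re ≠ 0 := by
      rcases h2 with h2 | h2
      · left; exact h2
      · right
        intro h3
        rw [h3, abs_zero] at h2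
        linarith
    have hd1 : DifferentiableAt ℂ (fun z : ℂ => Complex.I * z) y := by fun_prop
    exact ((hd1.clog (slit_I hs)).add_const _).neg

theorem diff_tY (c : Fin 4) : DifferentiableOn ℂ (tY c) (RY c) := by
  intro y hy
  apply DifferentiableAt.differentiableWithinAt
  fin_cases c
  · obtain ⟨h1, h2⟩ : y.re < 0 ∧ (y.im < 0 ∨ y.re ≠ -1) := hy
    have hne : y - 1 ≠ 0 := by
      intro h0
      have := congrArg Complex.re h0
      simp at this
      linarith
    exact (differentiableAt_id.add_const 1).div (differentiableAt_id.sub_const 1) hne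
  · exact differentiableAt_id
  · obtain ⟨h1, h2⟩ : 0 < y.re ∧ (y.im < 0 ∨ y.re ≠ 1) := hy
    have hne : y + 1 ≠ 0 := by
      intro h0
      have := congrArg Complex.re h0
      simp at this
      linarith
    exact (differentiableAt_id.sub_const 1).div (differentiableAt_id.add_const 1) hne
  · obtain ⟨h1, h2⟩ : 1 < ‖y‖ ∧ (y.im < 0 ∨ 1 < |y.re|) := hy
    have hne : y ≠ 0 := by
      rintro rfl
      simp at h1
      linarith
    exact (differentiableAt_const 1).div differentiableAt_id hne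

theorem norm_tY_lt (c : Fin 4) {y : ℂ} (hy : y ∈ RY c) : ‖tY c y‖ < 1 := by
  fin_cases c
  · exact norm_uy_lt hy.1
  · exact hy.1
  · exact norm_t2_lt hy.1
  · have h1 : 1 < ‖y‖ := hy.1
    change ‖1 / y‖ < 1
    rw [norm_div, norm_one, div_lt_one (by linarith)]
    exact h1

theorem diff_glc (c : Fin 4) (i j : Fin 8) :
    DifferentiableOn ℂ (fun y => glc c (TY c y) (tY c y) i j) (RY c) := by
  have hT := diff_TY c
  have ht := diff_tY c
  have hS : ∀ u ∈ RY c, ‖tY c u‖ < 1 := fun u hu => norm_tY_lt c hu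
  fin_cases c
  · exact diff_gl0 hT ht hS i j
  · refine diff_gl1 hT ht hS (fun u hu => ?_) i j
    rintro h0
    have h1 : u = 0 := h0
    rw [h1] at hu
    rcases hu.2 with h2 | h2
    · simp at h2
    · exact h2 rfl
  · exact diff_gl2 hT ht hS i j
  · exact diff_gl3 hT ht hS i j

lemma strip_ext {S : Set ℂ} (hS : IsOpen S) (hconv : Convex ℝ S) {f g : ℂ → ℂ}
    (hf : DifferentiableOn ℂ f S) (hg : DifferentiableOn ℂ g S)
    (heq : ∀ z ∈ S, z.im < 0 → f z = g z) (hne : ∃ z0 ∈ S, z0.im < 0) : EqOn f g S := by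
  obtain ⟨z0, hz0, hz0'⟩ := hne
  refine (hf.analyticOnNhd hS).eqOn_of_preconnected_of_eventuallyEq (hg.analyticOnNhd hS)
    hconv.isPreconnected hz0 ?_
  filter_upwards [hS.mem_nhds hz0,
    (isOpen_lt Complex.continuous_im continuous_const).mem_nhds hz0'] with z h1 h2
  exact heq z h1 h2

lemma convex_Jv (q : Fin 4) : Convex ℝ {y : ℂ | y.re ∈ Jv q} := by
  have h : Convex ℝ (Jv q) := by
    fin_cases q
    · exact convex_Ioo _ _
    · exact convex_Ioo _ _
    · exact convex_Iio _
    · exact convex_Ioi _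
  exact h.is_linear_preimage Complex.reLm.isLinear

/-- **the cusp expansions, also on the strips above the real intervals next to the cusp**, for any
continuation `X` of the flat vectors (`Vy` or 552's `X`) -/
theorem X_gl (hV : IsV V) {X : Fin 8 → ℂ → Fin 8 → ℂ}
    (hX : ∀ i j, DifferentiableOn ℂ (fun y => X i y j) OmY)
    (hXl : ∀ i, ∀ y : ℂ, y.im < 0 → X i y = V i (uy y)) (c : Fin 4) (i : Fin 8) {y : ℂ}
    (hy : y ∈ RY c) : X i y = glc c (TY c y) (tY c y) i := by
  rcases lt_or_ge y.im 0 with h | h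
  · rw [hXl i y h]
    exact V_gl_low hV c i hy h
  funext j
  -- the strip
  obtain ⟨q, hq, hsub⟩ : ∃ q, y.re ∈ Jv q ∧ ∃ S : Set ℂ, IsOpen S ∧ Convex ℝ S ∧
      S ⊆ {y : ℂ | y.re ∈ Jv q} ∧ S ⊆ RY c ∧ y ∈ S ∧ ∃ z0 ∈ S, z0.im < 0 := by
    have hop : ∀ q, IsOpen {y : ℂ | y.re ∈ Jv q} := fun q =>
      (isOpen_Jv q).preimage Complex.continuous_re
    fin_cases c
    · obtain ⟨h1, h2⟩ : y.re < 0 ∧ (y.im < 0 ∨ y.re ≠ -1) := hy
      have h3 : y.re ≠ -1 := h2.resolve_left (not_lt.2 h)
      obtain ⟨q, hq⟩ := exists_Jv h3 h1.ne (by linarith)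
      refine ⟨q, hq, {y : ℂ | y.re ∈ Jv q}, hop q, convex_Jv q, subset_rfl, ?_, hq,
        ⟨y.re, -1⟩, hq, by norm_num⟩
      intro z hz
      have hz' : z.re ∈ Jv q := hz
      fin_cases q
      · exact absurd (hq : (0 : ℝ) < _ ∧ _ < (1 : ℝ)).1 (not_lt.2 h1.le)
      · have h4 : -1 < z.re ∧ z.re < 0 := hz'
        exact ⟨h4.2, Or.inr h4.1.ne'⟩
      · have h4 : z.re < -1 := hz'
        exact ⟨by linarith, Or.inr h4.ne⟩
      · have h9 : 1 < y.re := hq
        linarith
    · obtain ⟨h1, h2⟩ : ‖y‖ < 1 ∧ (y.im < 0 ∨ y.re ≠ 0) := hy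
      have h3 : y.re ≠ 0 := h2.resolve_left (not_lt.2 h)
      have h4 : |y.re| < 1 := lt_of_le_of_lt (Complex.abs_re_le_norm y) h1
      obtain ⟨h5, h6⟩ := abs_lt.1 h4
      obtain ⟨q, hq⟩ := exists_Jv (by linarith) h3 (by linarith)
      refine ⟨q, hq, {y : ℂ | y.re ∈ Jv q} ∩ Metric.ball 0 1, (hop q).inter Metric.isOpen_ball,
        (convex_Jv q).inter (convex_ball _ _), inter_subset_left, ?_,
        ⟨hq, mem_ball_zero_iff.2 h1⟩, ⟨y.re, -((1 - |y.re|) / 2)⟩, ⟨hq, ?_⟩, ?_⟩
      · rintro z ⟨hz, hz2⟩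
        have hz' : z.re ∈ Jv q := hz
        refine ⟨mem_ball_zero_iff.1 hz2, Or.inr ?_⟩
        fin_cases q
        · exact (hz' : (0 : ℝ) < _ ∧ _ < (1 : ℝ)).1.ne'
        · exact (hz' : (-1 : ℝ) < _ ∧ _ < (0 : ℝ)).2.ne
        · exact absurd (hq : _ < (-1 : ℝ)) (not_lt.2 h5.le)
        · exact absurd (hq : (1 : ℝ) < _) (not_lt.2 h6.le)
      · rw [mem_ball_zero_iff]
        refine lt_of_le_of_lt (Complex.norm_le_abs_re_add_abs_im _) ?_
        simp only
        rw [abs_neg, abs_of_pos (by linarith : 0 < (1 - |y.re|) / 2)]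
        linarith
      · simp only
        linarith
    · obtain ⟨h1, h2⟩ : 0 < y.re ∧ (y.im < 0 ∨ y.re ≠ 1) := hy
      have h3 : y.re ≠ 1 := h2.resolve_left (not_lt.2 h)
      obtain ⟨q, hq⟩ := exists_Jv (by linarith) h1.ne' h3
      refine ⟨q, hq, {y : ℂ | y.re ∈ Jv q}, hop q, convex_Jv q, subset_rfl, ?_, hq,
        ⟨y.re, -1⟩, hq, by norm_num⟩
      intro z hz
      have hz' : z.re ∈ Jv q := hz
      fin_cases q
      · have h4 : 0 < z.re ∧ z.re < 1 := hz'
        exact ⟨h4.1, Or.inr h4.2.ne⟩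
      · exact absurd (hq : (-1 : ℝ) < _ ∧ _ < (0 : ℝ)).2 (not_lt.2 h1.le)
      · have h9 : y.re < -1 := hq
        linarith
      · have h4 : 1 < z.re := hz'
        exact ⟨by linarith, Or.inr h4.ne'⟩
    · obtain ⟨h1, h2⟩ : 1 < ‖y‖ ∧ (y.im < 0 ∨ 1 < |y.re|) := hy
      have h3 : 1 < |y.re| := h2.resolve_left (not_lt.2 h)
      rcases lt_abs.1 h3 with h4 | h4
      · refine ⟨3, h4, {y : ℂ | y.re ∈ Jv 3}, hop 3, convex_Jv 3, subset_rfl, ?_, h4,
          ⟨y.re, -1⟩, h4, by norm_num⟩
        intro z hz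
        have hz' : 1 < z.re := hz
        have h5 : 1 < |z.re| := lt_of_lt_of_le hz' (le_abs_self _)
        exact ⟨lt_of_lt_of_le h5 (Complex.abs_re_le_norm z), Or.inr h5⟩
      · have h4' : y.re < -1 := by linarith
        refine ⟨2, h4', {y : ℂ | y.re ∈ Jv 2}, hop 2, convex_Jv 2, subset_rfl, ?_, h4',
          ⟨y.re, -1⟩, h4', by norm_num⟩
        intro z hz
        have hz' : z.re < -1 := hz
        have h5 : 1 < |z.re| := lt_of_lt_of_le (by linarith : 1 < -z.re) (neg_le_abs _)
        exact ⟨lt_of_lt_of_le h5 (Complex.abs_re_le_norm z), Or.inr h5⟩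
  obtain ⟨S, hS1, hS2, hS3, hS4, hS5, hS6⟩ := hsub
  have hf : DifferentiableOn ℂ (fun y => X i y j) S :=
    (hX i j).mono fun z hz => mem_OmY_of_Jv (hS3 hz)
  have hg : DifferentiableOn ℂ (fun y => glc c (TY c y) (tY c y) i j) S :=
    (diff_glc c i j).mono hS4
  exact strip_ext hS1 hS2 hf hg
    (fun z hz hz' => by rw [hXl i z hz', V_gl_low hV c i (hS4 hz) hz']) hS6 hS5

theorem Vy_gl (hV : IsV V) (hW : ∀ q, IsW V q (W q)) (c : Fin 4) (i : Fin 8) {y : ℂ}
    (hy : y ∈ RY c) : Vy V W i y = glc c (TY c y) (tY c y) i :=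
  X_gl hV (fun i j => Vy_differentiableOn hV hW i j) (fun i _ h => Vy_low i h) c i hy

end

end

end Vale.Agent.P030.H580
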