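import Vale.Agent.P030.H580.WallIn

/-! # 265's `WallData` from a tree of quadric walls whose root is the exterior circle (helper580) -/

open MeasureTheory Set Filter Topology Matrix
open Vale.Agent.P030.H265 Vale.Agent.P030.H152

namespace Vale.Agent.P030.H580

/-- a wall `A |z|² + Bx x + By y + C = 0` -/
structure QW where
  A : ℝ
  Bx : ℝ
  By : ℝ
  C : ℝ

namespace QW

/-- the wall function -/
def fn (W : QW) (z : ℂ) : ℝ := W.A * Complex.normSq z + W.Bx * z.re + W.By * z.im + W.C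

lemma contDiff_fn (W : QW) : ContDiff ℝ 1 W.fn := by
  have h1 : ContDiff ℝ 1 fun z : ℂ => W.A * (z.re * z.re + z.im * z.im) + W.Bx * z.re
      + W.By * z.im + W.C :=
    (((contDiff_const.mul ((Complex.reCLM.contDiff.mul Complex.reCLM.contDiff).add
      (Complex.imCLM.contDiff.mul Complex.imCLM.contDiff))).add
      (contDiff_const.mul Complex.reCLM.contDiff)).add
      (contDiff_const.mul Complex.imCLM.contDiff)).add contDiff_const
  exact h1

lemma continuous_fn (W : QW) : Continuous W.fn := W.contDiff_fn.continuous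

/-- bound for the points of `|fn| ≤ 1` when `A ≠ 0` -/
noncomputable def rad (W : QW) : ℝ := (|W.Bx| + |W.By| + |W.C| + 1) / |W.A| + 1

lemma rad_nonneg (W : QW) : 0 ≤ W.rad := by unfold rad; positivity

lemma norm_le_rad (W : QW) (hA : W.A ≠ 0) {z : ℂ}
    (h : |W.A| * ‖z‖ ^ 2 ≤ 1 + |W.C| + (|W.Bx| + |W.By|) * ‖z‖) : ‖z‖ ≤ W.rad := by
  have hA' : 0 < |W.A| := abs_pos.2 hA
  rcases le_or_gt ‖z‖ 1 with h1 | h1
  · have : 0 ≤ (|W.Bx| + |W.By| + |W.C| + 1) / |W.A| := by positivity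
    unfold rad
    linarith
  · have h2 : |W.A| * ‖z‖ ≤ |W.Bx| + |W.By| + |W.C| + 1 := by
      have h0 : 0 < ‖z‖ := by linarith
      have h3 : (|W.A| * ‖z‖) * ‖z‖ ≤ (|W.Bx| + |W.By| + |W.C| + 1) * ‖z‖ := by
        nlinarith [abs_nonneg W.C, abs_nonneg W.Bx, abs_nonneg W.By]
      exact le_of_mul_le_mul_right h3 h0
    have h4 : ‖z‖ ≤ (|W.Bx| + |W.By| + |W.C| + 1) / |W.A| := by
      rw [le_div_iff₀ hA']
      linarith
    unfold rad
    linarith

lemma abs_lin_le (W : QW) (z : ℂ) : |W.Bx * z.re + W.By * z.im| ≤ (|W.Bx| + |W.By|) * ‖z‖ := by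
  calc |W.Bx * z.re + W.By * z.im| ≤ |W.Bx * z.re| + |W.By * z.im| := abs_add_le _ _
    _ = |W.Bx| * |z.re| + |W.By| * |z.im| := by rw [abs_mul, abs_mul]
    _ ≤ |W.Bx| * ‖z‖ + |W.By| * ‖z‖ := by
        gcongr
        · exact Complex.abs_re_le_norm _
        · exact Complex.abs_im_le_norm _
    _ = _ := by ring

lemma norm_le_of_abs_fn_le (W : QW) (hA : W.A ≠ 0) {z : ℂ} (h : |W.fn z| ≤ 1) : ‖z‖ ≤ W.rad := by
  apply W.norm_le_rad hA
  have h1 : W.A * ‖z‖ ^ 2 = W.fn z - (W.Bx * z.re + W.By * z.im) - W.C := by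
    unfold fn
    rw [Complex.normSq_eq_norm_sq]
    ring
  have h2 : |W.A| * ‖z‖ ^ 2 = |W.A * ‖z‖ ^ 2| := by
    rw [abs_mul, abs_of_nonneg (sq_nonneg ‖z‖)]
  rw [h2, h1]
  have h3 := W.abs_lin_le z
  calc |W.fn z - (W.Bx * z.re + W.By * z.im) - W.C|
      ≤ |W.fn z| + |W.Bx * z.re + W.By * z.im| + |W.C| := by
        have := abs_sub (W.fn z - (W.Bx * z.re + W.By * z.im)) W.C
        have h5 := abs_sub (W.fn z) (W.Bx * z.re + W.By * z.im)
        linarith
    _ ≤ _ := by linarith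

/-- the outside of the exterior circle -/
lemma norm_le_of_fn_le (W : QW) (hA : 0 < W.A) {z : ℂ} (h : W.fn z ≤ 1) : ‖z‖ ≤ W.rad := by
  apply W.norm_le_rad hA.ne'
  have h3 := (abs_le.1 (W.abs_lin_le z)).1
  unfold fn at h
  rw [Complex.normSq_eq_norm_sq] at h
  rw [abs_of_pos hA]
  have h4 := neg_abs_le W.C
  linarith

/-- a Lipschitz constant near the wall -/
noncomputable def lip (W : QW) : ℝ := |W.A| * (2 * W.rad + 1) + |W.Bx| + |W.By|

lemma lip_nonneg (W : QW) : 0 ≤ W.lip := by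
  have := W.rad_nonneg
  unfold lip
  positivity

lemma lip_spec (W : QW) (x z : ℂ) (h : |W.fn x| ≤ 1) (hd : dist x z ≤ 1) :
    |W.fn x - W.fn z| ≤ W.lip * dist x z := by
  rw [dist_eq_norm] at hd ⊢
  have h1 : W.fn x - W.fn z = W.A * (‖x‖ ^ 2 - ‖z‖ ^ 2)
      + (W.Bx * (x - z).re + W.By * (x - z).im) := by
    unfold fn
    rw [Complex.normSq_eq_norm_sq, Complex.normSq_eq_norm_sq, Complex.sub_re, Complex.sub_im]
    ring
  have h2 := W.abs_lin_le (x - z)
  have h3 : |W.A * (‖x‖ ^ 2 - ‖z‖ ^ 2)| ≤ |W.A| * (2 * W.rad + 1) * ‖x - z‖ := by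
    by_cases hA : W.A = 0
    · rw [hA]
      simp
    · have hx := W.norm_le_of_abs_fn_le hA h
      have hz : ‖z‖ ≤ W.rad + 1 := by
        have := norm_sub_norm_le z x
        rw [norm_sub_rev z x] at this
        linarith
      have h4 : |‖x‖ - ‖z‖| ≤ ‖x - z‖ := abs_norm_sub_norm_le x z
      have h5 : ‖x‖ ^ 2 - ‖z‖ ^ 2 = (‖x‖ - ‖z‖) * (‖x‖ + ‖z‖) := by ring
      rw [abs_mul, h5, abs_mul, abs_of_nonneg (by positivity : 0 ≤ ‖x‖ + ‖z‖)]
      have h6 : ‖x‖ + ‖z‖ ≤ 2 * W.rad + 1 := by linarith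
      have h7 : |‖x‖ - ‖z‖| * (‖x‖ + ‖z‖) ≤ ‖x - z‖ * (2 * W.rad + 1) :=
        mul_le_mul h4 h6 (by positivity) (norm_nonneg _)
      calc |W.A| * (|‖x‖ - ‖z‖| * (‖x‖ + ‖z‖)) ≤ |W.A| * (‖x - z‖ * (2 * W.rad + 1)) :=
            mul_le_mul_of_nonneg_left h7 (abs_nonneg _)
        _ = _ := by ring
  rw [h1]
  calc |W.A * (‖x‖ ^ 2 - ‖z‖ ^ 2) + (W.Bx * (x - z).re + W.By * (x - z).im)|
      ≤ |W.A * (‖x‖ ^ 2 - ‖z‖ ^ 2)| + |W.Bx * (x - z).re + W.By * (x - z).im| := abs_add_le _ _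
    _ ≤ |W.A| * (2 * W.rad + 1) * ‖x - z‖ + (|W.Bx| + |W.By|) * ‖x - z‖ := add_le_add h3 h2
    _ = W.lip * ‖x - z‖ := by unfold lip; ring

lemma norm_fderiv_fn_le (W : QW) {ε : ℝ} (hε : ε < 1) (z : ℂ) (h : |W.fn z| ≤ ε) :
    ‖fderiv ℝ W.fn z‖ ≤ W.lip := by
  have hop : ∀ᶠ y in 𝓝 z, |W.fn y| ≤ 1 := by
    have hc : Continuous fun y => |W.fn y| := W.continuous_fn.abs
    have : ∀ᶠ y in 𝓝 z, |W.fn y| < 1 :=
      (hc.tendsto z).eventually (gt_mem_nhds (lt_of_le_of_lt h hε))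
    exact this.mono fun _ h => h.le
  have hd : ∀ᶠ y in 𝓝 z, dist y z ≤ 1 := by
    filter_upwards [Metric.ball_mem_nhds z one_pos] with y hy
    exact (Metric.mem_ball.1 hy).le
  have hdiff : HasFDerivAt W.fn (fderiv ℝ W.fn z) z :=
    (W.contDiff_fn.differentiable (by norm_num) z).hasFDerivAt
  refine hdiff.le_of_lip' W.lip_nonneg ?_
  filter_upwards [hop, hd] with y hy hyd
  have := lip_spec W y z hy hyd
  rwa [Real.norm_eq_abs, ← dist_eq_norm]

/-- a common constant for finitely many walls -/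
theorem exists_lip {κ : Type} [Fintype κ] (W : κ → QW) {ε : ℝ} (hε : ε < 1) :
    ∃ L : ℝ, 0 < L ∧ (∀ j z, |(W j).fn z| ≤ ε → ‖fderiv ℝ (W j).fn z‖ ≤ L) ∧
      (∀ j x z, |(W j).fn x| ≤ ε → dist x z ≤ 1 →
        |(W j).fn x - (W j).fn z| ≤ L * dist x z) := by
  refine ⟨1 + ∑ j, (W j).lip, ?_, ?_, ?_⟩
  · have : 0 ≤ ∑ j, (W j).lip := Finset.sum_nonneg fun j _ => (W j).lip_nonneg
    linarith
  · intro j z h
    have h1 : (W j).lip ≤ ∑ j, (W j).lip :=
      Finset.single_le_sum (f := fun j => (W j).lip) (fun j _ => (W j).lip_nonneg)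
        (Finset.mem_univ j)
    linarith [norm_fderiv_fn_le (W j) hε z h]
  · intro j x z h hd
    have h1 : (W j).lip ≤ ∑ j, (W j).lip :=
      Finset.single_le_sum (f := fun j => (W j).lip) (fun j _ => (W j).lip_nonneg)
        (Finset.mem_univ j)
    refine (lip_spec (W j) x z (h.trans hε.le) hd).trans ?_
    exact mul_le_mul_of_nonneg_right (by linarith) dist_nonneg

end QW

/-- **265's wall data from a tree whose root is the exterior circle**: only the sharp closed cells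
have to be contained in the domains of the frames. -/
theorem exists_wallData {κ ι : Type} [DecidableEq ι] [Fintype ι] [Fintype κ] {m : ℕ}
    (W : κ → QW) (je : κ) (hA : 0 < (W je).A) (T' : WTree κ ι) (ie : ι)
    (U : ι → Set ℂ) (hU : ∀ i, IsOpen (U i))
    (hreg : ∀ i, (WTree.node je T' (WTree.leaf ie)).reg (fun j => (W j).fn) 0 i ⊆ U i)
    (S : ι → ℂ → Matrix (Fin m) (Fin m) ℂ) (uni : ∀ i, ∀ z ∈ U i, Unitri (S i z))
    (hol : ∀ i b c, DifferentiableOn ℂ (fun z => S i z b c) (U i))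
    (lim : ∀ b, ∃ c : Fin m → ℂ, Tendsto (fun z => S ie z b) (cocompact ℂ) (𝓝 c))
    (Z : ι → ι → Fin m → Fin m → Set ℂ) (closed_Z : ∀ i i' b c, IsClosed (Z i i' b c))
    (zero : ∀ i i' z, z ∈ U i → z ∈ U i' → ∀ b c, z ∉ Z i i' b c →
      (S i z b ᵥ* (S i' z)⁻¹) c = 0) :
    ∃ G : WallData κ ι m, G.T = WTree.node je T' (WTree.leaf ie) ∧
      G.g = (fun j => (W j).fn) ∧ G.ie = ie ∧ G.U = U ∧ G.S = S ∧ G.Z = Z ∧
      G.R1 = (W je).rad := by
  set T : WTree κ ι := WTree.node je T' (WTree.leaf ie) with hT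
  set g : κ → ℂ → ℝ := fun j => (W j).fn with hg
  have hfar : ∀ (a : ℝ), a ≤ 1 → ∀ z : ℂ, (W je).rad < ‖z‖ → a < g je z := by
    intro a ha z hz
    by_contra hcon
    push Not at hcon
    have := (W je).norm_le_of_fn_le hA (hcon.trans ha)
    linarith
  have hext : ∀ z : ℂ, (W je).rad < ‖z‖ → ∀ i, i ≠ ie → z ∉ T.reg g (1 / 2) i := by
    intro z hz i hi hzr
    rcases hzr with ⟨_, h2⟩ | ⟨h1, _⟩
    · exact hi h2
    · exact absurd h1 (not_le.2 (hfar (1 / 2) (by norm_num) z hz))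
  have hie : ∀ z : ℂ, (W je).rad < ‖z‖ → z ∈ U ie := by
    intro z hz
    apply hreg ie
    left
    refine ⟨?_, rfl⟩
    change -0 ≤ g je z
    have := hfar 0 (by norm_num) z hz
    linarith
  obtain ⟨L, hL, hd, hl⟩ := QW.exists_lip W (ε := 1 / 2) (by norm_num)
  obtain ⟨ε0, h3, h4, h5⟩ := exists_reg_subset (g := g) (fun j => (W j).continuous_fn) T U hU
    (W je).rad (a := 1 / 2) (by norm_num)
    (by
      intro i z hz hzr
      by_cases hi : i = ie
      · rw [hi]; exact hie z hz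
      · exact absurd hzr (hext z hz i hi)) hreg
  exact ⟨{
    T := T
    g := g
    smooth := fun j => (W j).contDiff_fn
    ε0 := ε0
    L := L
    R1 := (W je).rad
    ie := ie
    ε0_pos := h3
    L_pos := hL
    der := fun j z h => hd j z (h.trans h4)
    lip := fun j x z h hx => hl j x z (h.trans h4) hx
    ext := fun z hz i hi h => hext z hz i hi (reg_mono h4 T i h)
    U := U
    reg_U := h5
    isOpen_U := hU
    S := S
    uni := uni
    hol := hol
    lim := lim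
    Z := Z
    closed_Z := closed_Z
    zero := zero }, rfl, rfl, rfl, rfl, rfl, rfl, rfl⟩

end Vale.Agent.P030.H580
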