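import Vale.Agent.P030.H580.Glue

/-! # Collars avoiding a finite set and the Cauchy representation of glued frames (helper580)

Main statement: `exists_rep`. -/

open MeasureTheory Set Filter Topology Complex
open scoped Real

namespace Vale.Agent.P030.H580

/-- the profile across a wall: `0` for `x ≤ t`, `1` for `t + h ≤ x` -/
noncomputable def prof (t h x : ℝ) : ℝ := Real.smoothTransition ((x - t) / h)

lemma prof_mem (t h x : ℝ) : 0 ≤ prof t h x ∧ prof t h x ≤ 1 :=
  ⟨Real.smoothTransition.nonneg _, Real.smoothTransition.le_one _⟩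

lemma prof_zero {t h x : ℝ} (hh : 0 < h) (hx : x ≤ t) : prof t h x = 0 :=
  Real.smoothTransition.zero_of_nonpos (div_nonpos_of_nonpos_of_nonneg (by linarith) hh.le)

lemma prof_one {t h x : ℝ} (hh : 0 < h) (hx : t + h ≤ x) : prof t h x = 1 :=
  Real.smoothTransition.one_of_one_le (by rw [le_div_iff₀ hh]; linarith)

lemma contDiff_prof (t h : ℝ) : ContDiff ℝ 1 (prof t h) := by
  unfold prof
  exact Real.smoothTransition.contDiff.comp ((contDiff_id.sub contDiff_const).div_const h)

lemma exists_bound_deriv_smoothTransition :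
    ∃ C0 : ℝ, 0 < C0 ∧ ∀ x, |deriv Real.smoothTransition x| ≤ C0 := by
  have hc : Continuous (deriv Real.smoothTransition) :=
    (Real.smoothTransition.contDiff (n := 1)).continuous_deriv (by norm_num)
  obtain ⟨C, hC⟩ := (isCompact_Icc (a := (0 : ℝ)) (b := 1)).exists_bound_of_continuousOn
    hc.continuousOn
  refine ⟨max C 1, lt_of_lt_of_le one_pos (le_max_right _ _), fun x => ?_⟩
  by_cases hx : x ∈ Icc (0 : ℝ) 1
  · have := hC x hx
    rw [Real.norm_eq_abs] at this
    exact this.trans (le_max_left _ _)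
  · have h0 : deriv Real.smoothTransition x = 0 := by
      by_cases h1 : x < 0
      · have : Real.smoothTransition =ᶠ[𝓝 x] fun _ => 0 := by
          filter_upwards [Iio_mem_nhds h1] with y hy
          exact Real.smoothTransition.zero_of_nonpos (le_of_lt hy)
        rw [this.deriv_eq]
        simp
      · have h2 : 1 < x := by
          by_contra h3
          exact hx ⟨not_lt.1 h1, not_lt.1 h3⟩
        have : Real.smoothTransition =ᶠ[𝓝 x] fun _ => 1 := by
          filter_upwards [Ioi_mem_nhds h2] with y hy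
          exact Real.smoothTransition.one_of_one_le (le_of_lt hy)
        rw [this.deriv_eq]
        simp
    rw [h0, abs_zero]
    exact le_trans zero_le_one (le_max_right _ _)

/-- profile of a wall function -/
noncomputable def sg (g : ℂ → ℝ) (t h : ℝ) (z : ℂ) : ℝ := prof t h (g z)

lemma contDiff_sg {g : ℂ → ℝ} (hg : ContDiff ℝ 1 g) (t h : ℝ) : ContDiff ℝ 1 (sg g t h) :=
  (contDiff_prof t h).comp hg

lemma fderiv_sg {g : ℂ → ℝ} (hg : ContDiff ℝ 1 g) {t h : ℝ} (z : ℂ) :
    fderiv ℝ (sg g t h) z = (deriv Real.smoothTransition ((g z - t) / h) * (1 / h))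
      • fderiv ℝ g z := by
  have h1 : HasFDerivAt g (fderiv ℝ g z) z := (hg.differentiable (by norm_num) z).hasFDerivAt
  have h2 : HasDerivAt Real.smoothTransition
      (deriv Real.smoothTransition ((g z - t) / h)) ((g z - t) / h) :=
    ((Real.smoothTransition.contDiff (n := 1)).differentiable (by norm_num) _).hasDerivAt
  have h3 : HasDerivAt (fun x : ℝ => (x - t) / h) (1 / h) (g z) :=
    ((hasDerivAt_id _).sub_const t).div_const h
  have h4 : HasDerivAt (prof t h) (deriv Real.smoothTransition ((g z - t) / h) * (1 / h)) (g z) :=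
    h2.comp (g z) h3
  exact (h4.comp_hasFDerivAt z h1).fderiv

lemma norm_fderiv_sg_le {g : ℂ → ℝ} (hg : ContDiff ℝ 1 g) {t h L C0 : ℝ} (hh : 0 < h)
    (hC0 : ∀ x, |deriv Real.smoothTransition x| ≤ C0) {z : ℂ} (hL : ‖fderiv ℝ g z‖ ≤ L) :
    ‖fderiv ℝ (sg g t h) z‖ ≤ C0 / h * L := by
  rw [fderiv_sg hg, norm_smul, Real.norm_eq_abs, abs_mul, abs_of_pos (show 0 < 1 / h by positivity)]
  have := hC0 ((g z - t) / h)
  calc _ ≤ (C0 * (1 / h)) * L := by
        apply mul_le_mul _ hL (norm_nonneg _)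
        · have : 0 ≤ C0 := (abs_nonneg _).trans (hC0 0)
          positivity
        · exact mul_le_mul_of_nonneg_right this (by positivity)
    _ = _ := by ring

lemma fderiv_sg_eq_zero {g : ℂ → ℝ} (hg : ContDiff ℝ 1 g) {t h : ℝ} (hh : 0 < h) {z : ℂ}
    (hz : g z < t ∨ t + h < g z) : fderiv ℝ (sg g t h) z = 0 := by
  have hcont := hg.continuous
  rcases hz with hz | hz
  · have : sg g t h =ᶠ[𝓝 z] fun _ => 0 := by
      filter_upwards [(isOpen_lt hcont continuous_const).mem_nhds hz] with y hy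
      exact prof_zero hh (le_of_lt hy)
    rw [this.fderiv_eq]
    simp
  · have : sg g t h =ᶠ[𝓝 z] fun _ => 1 := by
      filter_upwards [(isOpen_lt continuous_const hcont).mem_nhds hz] with y hy
      exact prof_one hh (le_of_lt hy)
    rw [this.fderiv_eq]
    simp

/-- choice of a collar avoiding a finite set -/
lemma exists_collar (g : ℂ → ℝ) {ε : ℝ} (hε : 0 < ε) {K : ℕ} (A : Finset ℂ) (hA : A.card ≤ K) :
    ∃ t : ℝ, -ε ≤ t - 2 * ε / (3 * (K + 1)) ∧ t + 2 * (2 * ε / (3 * (K + 1))) ≤ ε ∧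
      ∀ z ∈ A, g z < t - 2 * ε / (3 * (K + 1)) ∨ t + 2 * (2 * ε / (3 * (K + 1))) ≤ g z := by
  set h : ℝ := 2 * ε / (3 * (K + 1)) with hh
  have hK : (0 : ℝ) < K + 1 := by positivity
  have hpos : 0 < h := by positivity
  have hsum : 3 * h * (K + 1) = 2 * ε := by
    rw [hh]
    field_simp
  classical
  let f : ℂ → ℤ := fun z => ⌊(g z + ε) / (3 * h)⌋
  have hcard : (A.image f).card ≤ K := Finset.card_image_le.trans hA
  obtain ⟨k, hk, hkA⟩ : ∃ k ∈ (Finset.range (K + 1)).image (fun n : ℕ => (n : ℤ)),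
      k ∉ A.image f := by
    apply Finset.exists_mem_notMem_of_card_lt_card
    rw [Finset.card_image_of_injective _ Nat.cast_injective, Finset.card_range]
    omega
  obtain ⟨n, hn, rfl⟩ := Finset.mem_image.1 hk
  have hn' : (n : ℝ) ≤ K := by
    have := Finset.mem_range.1 hn
    exact_mod_cast Nat.lt_succ_iff.1 this
  refine ⟨-ε + 3 * h * n + h, ?_, ?_, ?_⟩
  · have : 0 ≤ 3 * h * (n : ℝ) := by positivity
    linarith
  · have : 3 * h * (n : ℝ) ≤ 3 * h * K := mul_le_mul_of_nonneg_left hn' (by positivity)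
    nlinarith
  · intro z hz
    by_contra hcon
    push Not at hcon
    obtain ⟨h1, h2⟩ := hcon
    apply hkA
    refine Finset.mem_image.2 ⟨z, hz, ?_⟩
    change ⌊(g z + ε) / (3 * h)⌋ = (n : ℤ)
    rw [Int.floor_eq_iff]
    push_cast
    constructor
    · rw [le_div_iff₀ (by positivity)]
      nlinarith
    · rw [div_lt_iff₀ (by positivity)]
      nlinarith

lemma dw_const_of_eventually {w : ℂ → ℝ} {z : ℂ} {c : ℝ} (h : w =ᶠ[𝓝 z] fun _ => c) :
    dw w z = 0 := by
  refine dbar_eq_zero_of_eventually_const (c := (c : ℂ)) ?_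
  filter_upwards [h] with y hy
  rw [hy]

/-- **Cauchy representation of glued frames.**  `T` = decision tree of walls `g j = 0`, cells `i`
with closed regions `T.reg g ε i ⊆ U i`, local holomorphic frames `F i` on `U i`.  For every finite
set `A` of at most `K` points there is a glued function `F'` which at the points of `A` is one of
the active frames and which is a Cauchy transform with density supported at distance
`≥ min 1 (2ε/(3(K+1)L))` from `A`, the density being a combination of differences of active frames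
with coefficients `O(K)`. -/
theorem exists_rep {κ ι : Type} [DecidableEq ι] [Fintype ι] [Nonempty ι] [Fintype κ]
    {E : Type*} [NormedAddCommGroup E] [NormedSpace ℂ E] [CompleteSpace E]
    (T : WTree κ ι) (g : κ → ℂ → ℝ) (hg : ∀ j, ContDiff ℝ 1 (g j))
    {ε L R1 : ℝ} (hε : 0 < ε) (hL0 : 0 < L)
    (hLd : ∀ j z, |g j z| ≤ ε → ‖fderiv ℝ (g j) z‖ ≤ L)
    (hLip : ∀ j x z, |g j x| ≤ ε → dist x z ≤ 1 → |g j x - g j z| ≤ L * dist x z)
    (F : ι → ℂ → E) (U : ι → Set ℂ) (hU : ∀ i, IsOpen (U i))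
    (hF : ∀ i, DifferentiableOn ℂ (F i) (U i)) (hreg : ∀ i, T.reg g ε i ⊆ U i)
    (ie : ι) (hext : ∀ z : ℂ, R1 < ‖z‖ → ∀ i, i ≠ ie → z ∉ T.reg g ε i)
    (c : E) (hc : Tendsto (F ie) (cocompact ℂ) (𝓝 c)) :
    ∃ C1 : ℝ, 0 < C1 ∧ ∀ K : ℕ, ∀ A : Finset ℂ, A.card ≤ K →
      ∃ (μ : Measure ℂ) (J F' : ℂ → E), μ ≤ volume.restrict (Metric.closedBall 0 R1) ∧
        Continuous J ∧
        (∀ z ∈ A, F' z = c + ∫ x, (x - z)⁻¹ • J x ∂μ) ∧
        (∀ z ∈ A, ∃ i, z ∈ T.reg g ε i ∧ F' z = F i z) ∧
        (∀ᵐ x ∂μ, ∀ z ∈ A, min 1 (2 * ε / (3 * (K + 1)) / L) ≤ dist x z) ∧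
        (∀ x, ∃ i0, x ∈ T.reg g ε i0 ∧ ∃ a : ι → ℂ, (∀ i, a i ≠ 0 → x ∈ T.reg g ε i) ∧
          (∀ i, ‖a i‖ ≤ C1 * (K + 1)) ∧ J x = ∑ i, a i • (F i x - F i0 x)) := by
  classical
  obtain ⟨C0, hC0, hC0'⟩ := exists_bound_deriv_smoothTransition
  refine ⟨C0 * L * 3 / (2 * ε) * T.depth + 1, by positivity, fun K A hA => ?_⟩
  have hK : (0 : ℝ) < K + 1 := by positivity
  set h : ℝ := 2 * ε / (3 * (K + 1)) with hh
  have hpos : 0 < h := by positivity
  choose t ht1 ht2 ht3 using fun j => exists_collar (g j) hε A hA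
  rw [← hh] at ht1 ht2 ht3
  have ht1' : ∀ j, -ε ≤ t j := fun j => by linarith [ht1 j]
  have ht2' : ∀ j, t j + h ≤ ε := fun j => by linarith [ht2 j]
  set σ : κ → ℂ → ℝ := fun j => sg (g j) (t j) h with hσ
  have hσ1 : ∀ j, ContDiff ℝ 1 (σ j) := fun j => contDiff_sg (hg j) _ _
  have hσm : ∀ z j, 0 ≤ σ j z ∧ σ j z ≤ 1 := fun z j => prof_mem _ _ _
  have hσ0 : ∀ z j, g j z < -ε → σ j z = 0 := fun z j hz =>
    prof_zero hpos (by linarith [ht1' j])
  have hσ1' : ∀ z j, ε < g j z → σ j z = 1 := fun z j hz =>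
    prof_one hpos (by linarith [ht2' j])
  set w : ι → ℂ → ℝ := fun i => T.wt σ i with hw
  have hw1 : ∀ i, ContDiff ℝ 1 (w i) := fun i => T.contDiff_wt hσ1 i
  have hcl : ∀ i, IsClosed (T.reg g ε i) := fun i =>
    T.isClosed_reg (fun j => (hg j).continuous) ε i
  have hsup : ∀ i, tsupport (w i) ⊆ T.reg g ε i := by
    intro i
    refine closure_minimal ?_ (hcl i)
    intro z hz
    exact T.wt_ne_zero_mem_reg (hσ0 z) (hσ1' z) i hz
  obtain ⟨hC1, hdb⟩ := glued_spec hw1 hU hF (fun i => (hsup i).trans (hreg i))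
  -- exterior
  have hext0 : ∀ z : ℂ, R1 < ‖z‖ → ∀ i, i ≠ ie → w i z = 0 := by
    intro z hz i hi
    by_contra hne
    exact hext z hz i hi (T.wt_ne_zero_mem_reg (hσ0 z) (hσ1' z) i hne)
  have hext1 : ∀ z : ℂ, R1 < ‖z‖ → w ie z = 1 := by
    intro z hz
    have h1 := T.sum_wt σ z
    rw [Finset.sum_eq_single ie] at h1
    · exact h1
    · intro i _ hi
      exact hext0 z hz i hi
    · intro hn
      exact absurd (Finset.mem_univ _) hn
  have hopen : IsOpen {z : ℂ | R1 < ‖z‖} := isOpen_lt continuous_const continuous_norm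
  have hdwext : ∀ z : ℂ, R1 < ‖z‖ → ∀ i, dw (w i) z = 0 := by
    intro z hz i
    by_cases hi : i = ie
    · subst hi
      refine dw_const_of_eventually (c := 1) ?_
      filter_upwards [hopen.mem_nhds hz] with y hy
      exact hext1 y hy
    · refine dw_const_of_eventually (c := 0) ?_
      filter_upwards [hopen.mem_nhds hz] with y hy
      exact hext0 y hy i hi
  have hlim : Tendsto (glued w F) (cocompact ℂ) (𝓝 c) := by
    refine hc.congr' ?_
    have : ∀ᶠ z : ℂ in cocompact ℂ, R1 < ‖z‖ := by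
      have := tendsto_norm_cocompact_atTop (E := ℂ)
      exact this.eventually (eventually_gt_atTop R1)
    filter_upwards [this] with z hz
    unfold glued
    rw [Finset.sum_eq_single ie]
    · rw [hext1 z hz]
      simp
    · intro i _ hi
      rw [hext0 z hz i hi]
      simp
    · intro hn
      exact absurd (Finset.mem_univ _) hn
  have hcs : HasCompactSupport (dbar (glued w F)) := by
    refine HasCompactSupport.of_support_subset_isCompact (isCompact_closedBall (0 : ℂ) R1) ?_
    intro z hz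
    by_contra hn
    rw [mem_closedBall_zero_iff, not_le] at hn
    apply hz
    rw [hdb z]
    exact Finset.sum_eq_zero fun i _ => by rw [hdwext z hn i, zero_smul]
  -- the collar set
  set S : Set ℂ := Metric.closedBall 0 R1 ∩ {z | ∃ j, t j ≤ g j z ∧ g j z ≤ t j + h} with hS
  have hSm : MeasurableSet S := by
    refine measurableSet_closedBall.inter ?_
    have : {z : ℂ | ∃ j, t j ≤ g j z ∧ g j z ≤ t j + h}
        = ⋃ j, ({z | t j ≤ g j z} ∩ {z | g j z ≤ t j + h}) := by
      ext z
      simp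
    rw [this]
    refine MeasurableSet.iUnion fun j => ?_
    exact ((isClosed_le continuous_const (hg j).continuous).inter
      (isClosed_le (hg j).continuous continuous_const)).measurableSet
  have hJ0 : ∀ z, z ∉ S → dbar (glued w F) z = 0 := by
    intro z hz
    rw [hdb z]
    refine Finset.sum_eq_zero fun i _ => ?_
    by_cases hb : z ∈ Metric.closedBall (0 : ℂ) R1
    · have hno : ∀ j, g j z < t j ∨ t j + h < g j z := by
        intro j
        by_contra hcon
        push Not at hcon
        exact hz ⟨hb, j, hcon.1, hcon.2⟩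
      have hfd : ∀ j, ‖fderiv ℝ (σ j) z‖ ≤ 0 := by
        intro j
        rw [hσ]
        simp only
        rw [fderiv_sg_eq_zero (hg j) hpos (hno j)]
        simp
      have := T.norm_fderiv_wt_le hσ1 (hσm z) le_rfl hfd i
      rw [zero_mul] at this
      have h2 := norm_dw_le ((hw1 i).differentiable (by norm_num) z)
      have h3 : ‖dw (w i) z‖ ≤ 0 := h2.trans this
      rw [norm_le_zero_iff.1 h3, zero_smul]
    · rw [mem_closedBall_zero_iff, not_le] at hb
      rw [hdwext z hb i, zero_smul]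
  have hnorm_dw : ∀ z i, ‖dw (w i) z‖ ≤ C0 * L * 3 / (2 * ε) * T.depth * (K + 1) := by
    intro z i
    have hfd : ∀ j, ‖fderiv ℝ (σ j) z‖ ≤ C0 / h * L := by
      intro j
      by_cases hj : |g j z| ≤ ε
      · exact norm_fderiv_sg_le (hg j) hpos hC0' (hLd j z hj)
      · have : g j z < t j ∨ t j + h < g j z := by
          by_contra hcon
          push Not at hcon
          apply hj
          rw [abs_le]
          exact ⟨(ht1' j).trans hcon.1, hcon.2.trans (ht2' j)⟩
        rw [hσ]
        simp only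
        rw [fderiv_sg_eq_zero (hg j) hpos this, norm_zero]
        positivity
    have h1 := T.norm_fderiv_wt_le hσ1 (hσm z) (by positivity) hfd i
    have h2 := norm_dw_le ((hw1 i).differentiable (by norm_num) z)
    refine (h2.trans h1).trans (le_of_eq ?_)
    rw [hh]
    field_simp
  have hsumdw : ∀ z, ∑ i, dw (w i) z = 0 := by
    intro z
    have h1 : (fun z => ∑ i, ((w i z : ℝ) : ℂ)) = fun _ => (1 : ℂ) := by
      funext y
      have := T.sum_wt σ y
      rw [← Complex.ofReal_sum]
      exact_mod_cast this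
    have hd : ∀ i, DifferentiableAt ℝ (fun z => ((w i z : ℝ) : ℂ)) z := fun i =>
      (Complex.ofRealCLM.contDiff.comp (hw1 i)).differentiable (by norm_num) z
    have h2 : fderiv ℝ (fun z => ∑ i, ((w i z : ℝ) : ℂ)) z
        = ∑ i, fderiv ℝ (fun z => ((w i z : ℝ) : ℂ)) z := fderiv_fun_sum fun i _ => hd i
    have h3 : dbar (fun z => ∑ i, ((w i z : ℝ) : ℂ)) z = ∑ i, dw (w i) z := by
      unfold dw dbar
      rw [h2]
      simp only [sum_apply]
      rw [Finset.smul_sum, ← Finset.sum_add_distrib, Finset.smul_sum]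
    rw [← h3, h1]
    exact dbar_eq_zero_of_eventually_const (c := (1 : ℂ)) (Eventually.of_forall fun _ => rfl)
  refine ⟨volume.restrict S, fun x => -(π : ℂ)⁻¹ • dbar (glued w F) x, glued w F, ?_, ?_, ?_, ?_,
    ?_, ?_⟩
  · exact Measure.restrict_mono inter_subset_left le_rfl
  · have h1 : Continuous (fderiv ℝ (glued w F)) := hC1.continuous_fderiv (by norm_num)
    have h2 : Continuous (dbar (glued w F)) := by
      unfold dbar
      exact ((h1.clm_apply continuous_const).add
        ((h1.clm_apply continuous_const).const_smul I)).const_smul _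
    exact h2.const_smul _
  · intro z _
    rw [pompeiu (glued w F) hC1 c hlim hcs z]
    congr 1
    symm
    apply setIntegral_eq_integral_of_forall_compl_eq_zero
    intro x hx
    change (x - z)⁻¹ • (-(π : ℂ)⁻¹ • dbar (glued w F) x) = 0
    rw [hJ0 x hx]
    simp
  · intro z hz
    have h01 : ∀ j, σ j z = 0 ∨ σ j z = 1 := by
      intro j
      rcases ht3 j z hz with h1 | h1
      · left
        exact prof_zero hpos (by linarith)
      · right
        exact prof_one hpos (by linarith)
    obtain ⟨i0, hi0⟩ := T.exists_pick h01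
    refine ⟨i0, ?_, ?_⟩
    · refine T.wt_ne_zero_mem_reg (hσ0 z) (hσ1' z) i0 ?_
      rw [hi0 i0, if_pos rfl]
      norm_num
    · unfold glued
      rw [Finset.sum_eq_single i0]
      · change ((T.wt σ i0 z : ℝ) : ℂ) • F i0 z = _
        rw [hi0 i0, if_pos rfl]
        simp
      · intro i _ hi
        change ((T.wt σ i z : ℝ) : ℂ) • F i z = _
        rw [hi0 i, if_neg hi]
        simp
      · intro hn
        exact absurd (Finset.mem_univ _) hn
  · rw [ae_restrict_iff' hSm]
    refine Eventually.of_forall fun x hx z hz => ?_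
    obtain ⟨_, j, hj1, hj2⟩ := hx
    by_contra hcon
    rw [not_le, lt_min_iff] at hcon
    obtain ⟨hd1, hd2⟩ := hcon
    have habs : |g j x| ≤ ε := abs_le.2 ⟨(ht1' j).trans hj1, hj2.trans (ht2' j)⟩
    have hl := hLip j x z habs hd1.le
    have hlt : L * dist x z < h := by
      rw [lt_div_iff₀ hL0] at hd2
      linarith
    have := (abs_lt.1 (lt_of_le_of_lt hl hlt))
    rcases ht3 j z hz with h1 | h1
    · linarith [this.2]
    · linarith [this.1]
  · intro x
    have hne : ∃ i0, w i0 x ≠ 0 := by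
      by_contra hcon
      push Not at hcon
      have := T.sum_wt σ x
      rw [Finset.sum_eq_zero fun i _ => hcon i] at this
      exact zero_ne_one this
    obtain ⟨i0, hi0⟩ := hne
    refine ⟨i0, T.wt_ne_zero_mem_reg (hσ0 x) (hσ1' x) i0 hi0,
      fun i => -(π : ℂ)⁻¹ * dw (w i) x, ?_, ?_, ?_⟩
    · intro i hi
      apply hsup i
      by_contra hn
      apply hi
      change -(π : ℂ)⁻¹ * dw (w i) x = 0
      rw [dw_eq_zero_of_notMem hn, mul_zero]
    · intro i
      have hpi : ‖-(π : ℂ)⁻¹‖ ≤ 1 := by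
        rw [norm_neg, norm_inv, Complex.norm_real, Real.norm_eq_abs, abs_of_pos Real.pi_pos]
        exact inv_le_one_of_one_le₀ (by linarith [Real.pi_gt_three])
      rw [norm_mul]
      have h0 : 0 ≤ C0 * L * 3 / (2 * ε) * T.depth * (K + 1) := by positivity
      calc _ ≤ 1 * (C0 * L * 3 / (2 * ε) * T.depth * (K + 1)) :=
            mul_le_mul hpi (hnorm_dw x i) (norm_nonneg _) zero_le_one
        _ ≤ (C0 * L * 3 / (2 * ε) * T.depth + 1) * (K + 1) := by nlinarith
    · simp only
      rw [hdb x, Finset.smul_sum]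
      have h1 : ∑ i, (-(π : ℂ)⁻¹ * dw (w i) x) • (F i x - F i0 x)
          = ∑ i, (-(π : ℂ)⁻¹ * dw (w i) x) • F i x
            - (∑ i, (-(π : ℂ)⁻¹ * dw (w i) x)) • F i0 x := by
        rw [Finset.sum_smul, ← Finset.sum_sub_distrib]
        exact Finset.sum_congr rfl fun i _ => by rw [smul_sub]
      rw [h1, ← Finset.mul_sum, hsumdw x, mul_zero, zero_smul, sub_zero]
      exact Finset.sum_congr rfl fun i _ => by rw [smul_smul]

end Vale.Agent.P030.H580
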