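import Vale.Agent.P030.H580.Pompeiu

/-! # Gluing of local holomorphic frames along walls (helper580)

A decision tree of walls (`WTree`), its partition of unity `wt`, the closed regions `reg`, the
choice of collars avoiding a finite set and the resulting Cauchy representation. -/

open MeasureTheory Set Filter Topology Complex
open scoped Real

namespace Vale.Agent.P030.H580

/-- Decision tree: inner nodes are walls `j : κ`, leaves are cells `i : ι`. -/
inductive WTree (κ ι : Type) : Type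
  | leaf : ι → WTree κ ι
  | node : κ → WTree κ ι → WTree κ ι → WTree κ ι

namespace WTree

variable {κ ι : Type} [DecidableEq ι]

/-- depth of the tree -/
def depth : WTree κ ι → ℕ
  | leaf _ => 0
  | node _ l r => 1 + max l.depth r.depth

/-- the weight of the cell `i` at `z` when the wall `j` has the profile `σ j` (`0` on the left
side, `1` on the right side) -/
noncomputable def wt (σ : κ → ℂ → ℝ) : WTree κ ι → ι → ℂ → ℝ
  | leaf i0, i, _ => if i = i0 then 1 else 0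
  | node j l r, i, z => σ j z * r.wt σ i z + (1 - σ j z) * l.wt σ i z

/-- the closed region where the cell `i` may be active: `-ε ≤ g j` on right turns, `g j ≤ ε` on
left turns -/
def reg (g : κ → ℂ → ℝ) (ε : ℝ) : WTree κ ι → ι → Set ℂ
  | leaf i0, i => {_z | i = i0}
  | node j l r, i => ({z | -ε ≤ g j z} ∩ r.reg g ε i) ∪ ({z | g j z ≤ ε} ∩ l.reg g ε i)

lemma wt_mem {σ : κ → ℂ → ℝ} {z : ℂ} (h : ∀ j, 0 ≤ σ j z ∧ σ j z ≤ 1) (T : WTree κ ι) (i : ι) :
    0 ≤ T.wt σ i z ∧ T.wt σ i z ≤ 1 := by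
  induction T with
  | leaf i0 =>
    simp only [wt]
    split_ifs <;> norm_num
  | node j l r hl hr =>
    simp only [wt]
    obtain ⟨h0, h1⟩ := h j
    constructor
    · have := mul_nonneg h0 hr.1
      have := mul_nonneg (sub_nonneg.2 h1) hl.1
      linarith
    · have e1 : σ j z * r.wt σ i z ≤ σ j z * 1 := mul_le_mul_of_nonneg_left hr.2 h0
      have e2 : (1 - σ j z) * l.wt σ i z ≤ (1 - σ j z) * 1 :=
        mul_le_mul_of_nonneg_left hl.2 (sub_nonneg.2 h1)
      linarith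

lemma sum_wt [Fintype ι] (σ : κ → ℂ → ℝ) (T : WTree κ ι) (z : ℂ) :
    ∑ i, T.wt σ i z = 1 := by
  induction T with
  | leaf i0 => simp [wt]
  | node j l r hl hr =>
    simp only [wt]
    rw [Finset.sum_add_distrib, ← Finset.mul_sum, ← Finset.mul_sum, hl, hr]
    ring

lemma contDiff_wt {σ : κ → ℂ → ℝ} (h : ∀ j, ContDiff ℝ 1 (σ j)) (T : WTree κ ι) (i : ι) :
    ContDiff ℝ 1 (T.wt σ i) := by
  induction T with
  | leaf i0 =>
    change ContDiff ℝ 1 (fun _ : ℂ => if i = i0 then (1 : ℝ) else 0)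
    exact contDiff_const
  | node j l r hl hr =>
    change ContDiff ℝ 1 (fun z : ℂ => σ j z * r.wt σ i z + (1 - σ j z) * l.wt σ i z)
    exact ((h j).mul hr).add ((contDiff_const.sub (h j)).mul hl)

lemma norm_fderiv_wt_le {σ : κ → ℂ → ℝ} (h : ∀ j, ContDiff ℝ 1 (σ j)) {z : ℂ}
    (h01 : ∀ j, 0 ≤ σ j z ∧ σ j z ≤ 1) {B : ℝ} (hB0 : 0 ≤ B)
    (hB : ∀ j, ‖fderiv ℝ (σ j) z‖ ≤ B) (T : WTree κ ι) (i : ι) :
    ‖fderiv ℝ (T.wt σ i) z‖ ≤ B * T.depth := by
  induction T with
  | leaf i0 =>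
    have : fderiv ℝ ((leaf i0 : WTree κ ι).wt σ i) z = 0 := by
      change fderiv ℝ (fun _ : ℂ => if i = i0 then (1 : ℝ) else 0) z = 0
      simp
    rw [this]
    simp [depth]
  | node j l r hl hr =>
    have dσ : DifferentiableAt ℝ (σ j) z := (h j).differentiable (by norm_num) z
    have dl : DifferentiableAt ℝ (l.wt σ i) z := (contDiff_wt h l i).differentiable (by norm_num) z
    have dr : DifferentiableAt ℝ (r.wt σ i) z := (contDiff_wt h r i).differentiable (by norm_num) z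
    have e : fderiv ℝ ((node j l r : WTree κ ι).wt σ i) z
        = (r.wt σ i z - l.wt σ i z) • fderiv ℝ (σ j) z + (σ j z • fderiv ℝ (r.wt σ i) z
          + (1 - σ j z) • fderiv ℝ (l.wt σ i) z) := by
      have h1 : HasFDerivAt ((node j l r : WTree κ ι).wt σ i)
          ((σ j z • fderiv ℝ (r.wt σ i) z + r.wt σ i z • fderiv ℝ (σ j) z)
          + ((1 - σ j z) • fderiv ℝ (l.wt σ i) z + l.wt σ i z • (0 - fderiv ℝ (σ j) z))) z := by
        change HasFDerivAt (fun z : ℂ => σ j z * r.wt σ i z + (1 - σ j z) * l.wt σ i z) _ z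
        exact (dσ.hasFDerivAt.mul dr.hasFDerivAt).add
          (((hasFDerivAt_const (1 : ℝ) z).sub dσ.hasFDerivAt).mul dl.hasFDerivAt)
      rw [h1.fderiv]
      module
    rw [e]
    obtain ⟨h0, h1⟩ := h01 j
    obtain ⟨l0, l1⟩ := wt_mem h01 l i
    obtain ⟨r0, r1⟩ := wt_mem h01 r i
    have hd : |r.wt σ i z - l.wt σ i z| ≤ 1 := by
      rw [abs_le]
      constructor <;> linarith
    have n1 : ‖(r.wt σ i z - l.wt σ i z) • fderiv ℝ (σ j) z‖ ≤ B := by
      rw [norm_smul, Real.norm_eq_abs]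
      calc _ ≤ 1 * B := mul_le_mul hd (hB j) (norm_nonneg _) zero_le_one
        _ = B := one_mul _
    set m : ℝ := ((max l.depth r.depth : ℕ) : ℝ) with hm
    have hl' : ‖fderiv ℝ (l.wt σ i) z‖ ≤ B * m :=
      hl.trans (mul_le_mul_of_nonneg_left (by rw [hm]; exact_mod_cast le_max_left _ _) hB0)
    have hr' : ‖fderiv ℝ (r.wt σ i) z‖ ≤ B * m :=
      hr.trans (mul_le_mul_of_nonneg_left (by rw [hm]; exact_mod_cast le_max_right _ _) hB0)
    have n2 : ‖σ j z • fderiv ℝ (r.wt σ i) z‖ ≤ σ j z * (B * m) := by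
      rw [norm_smul, Real.norm_eq_abs, abs_of_nonneg h0]
      exact mul_le_mul_of_nonneg_left hr' h0
    have n3 : ‖(1 - σ j z) • fderiv ℝ (l.wt σ i) z‖ ≤ (1 - σ j z) * (B * m) := by
      rw [norm_smul, Real.norm_eq_abs, abs_of_nonneg (sub_nonneg.2 h1)]
      exact mul_le_mul_of_nonneg_left hl' (sub_nonneg.2 h1)
    have hdep : ((node j l r : WTree κ ι).depth : ℝ) = 1 + m := by
      simp only [depth]
      push_cast [hm]
      ring
    rw [hdep]
    calc _ ≤ ‖(r.wt σ i z - l.wt σ i z) • fderiv ℝ (σ j) z‖ + ‖σ j z • fderiv ℝ (r.wt σ i) z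
          + (1 - σ j z) • fderiv ℝ (l.wt σ i) z‖ := norm_add_le _ _
      _ ≤ B + (σ j z * (B * m) + (1 - σ j z) * (B * m)) :=
          add_le_add n1 ((norm_add_le _ _).trans (add_le_add n2 n3))
      _ = B * (1 + m) := by ring

lemma isClosed_reg {g : κ → ℂ → ℝ} (hg : ∀ j, Continuous (g j)) (ε : ℝ) (T : WTree κ ι) (i : ι) :
    IsClosed (T.reg g ε i) := by
  induction T with
  | leaf i0 =>
    by_cases hi : i = i0
    · have : (leaf i0 : WTree κ ι).reg g ε i = univ := by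
        ext z; simp [reg, hi]
      rw [this]; exact isClosed_univ
    · have : (leaf i0 : WTree κ ι).reg g ε i = ∅ := by
        ext z; simp [reg, hi]
      rw [this]; exact isClosed_empty
  | node j l r hl hr =>
    exact ((isClosed_le continuous_const (hg j)).inter hr).union
      ((isClosed_le (hg j) continuous_const).inter hl)

lemma wt_ne_zero_mem_reg {g : κ → ℂ → ℝ} {ε : ℝ} {σ : κ → ℂ → ℝ} {z : ℂ}
    (h0 : ∀ j, g j z < -ε → σ j z = 0) (h1 : ∀ j, ε < g j z → σ j z = 1)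
    (T : WTree κ ι) (i : ι) (hne : T.wt σ i z ≠ 0) : z ∈ T.reg g ε i := by
  induction T with
  | leaf i0 =>
    simp only [wt] at hne
    by_contra hn
    apply hne
    rw [if_neg]
    intro hi
    exact hn hi
  | node j l r hl hr =>
    simp only [wt] at hne
    by_cases ha : σ j z * r.wt σ i z = 0
    · have hb : (1 - σ j z) * l.wt σ i z ≠ 0 := by
        intro hb
        exact hne (by rw [ha, hb, add_zero])
      refine Or.inr ⟨?_, hl (right_ne_zero_of_mul hb)⟩
      by_contra hgt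
      have hgt' : ε < g j z := not_le.1 hgt
      exact left_ne_zero_of_mul hb (by rw [h1 j hgt', sub_self])
    · refine Or.inl ⟨?_, hr (right_ne_zero_of_mul ha)⟩
      by_contra hlt
      have hlt' : g j z < -ε := not_le.1 hlt
      exact left_ne_zero_of_mul ha (h0 j hlt')

/-- where all profiles are `0` or `1` one cell has weight one -/
lemma exists_pick {σ : κ → ℂ → ℝ} {z : ℂ} (h : ∀ j, σ j z = 0 ∨ σ j z = 1) (T : WTree κ ι) :
    ∃ i0, ∀ i, T.wt σ i z = if i = i0 then 1 else 0 := by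
  induction T with
  | leaf i0 => exact ⟨i0, fun i => rfl⟩
  | node j l r hl hr =>
    rcases h j with h0 | h1
    · obtain ⟨i0, hi⟩ := hl
      refine ⟨i0, fun i => ?_⟩
      simp only [wt]
      rw [h0, hi i]
      ring
    · obtain ⟨i0, hi⟩ := hr
      refine ⟨i0, fun i => ?_⟩
      simp only [wt]
      rw [h1, hi i]
      ring

end WTree

section glue

variable {E : Type*} [NormedAddCommGroup E] [NormedSpace ℂ E]

/-- `dbar` of a real weight. -/
noncomputable def dw (w : ℂ → ℝ) (z : ℂ) : ℂ := dbar (fun z => ((w z : ℝ) : ℂ)) z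

lemma dbar_eq_zero_of_eventually_const {φ : ℂ → E} {z : ℂ} {c : E} (h : φ =ᶠ[𝓝 z] fun _ => c) :
    dbar φ z = 0 := by
  have : fderiv ℝ φ z = 0 := by
    rw [h.fderiv_eq]
    simp
  unfold dbar
  rw [this]
  simp

lemma dbar_holo {φ : ℂ → E} {z : ℂ} (h : DifferentiableAt ℂ φ z) : dbar φ z = 0 := by
  have e : fderiv ℝ φ z = (fderiv ℂ φ z).restrictScalars ℝ :=
    (h.hasFDerivAt.restrictScalars ℝ).fderiv
  unfold dbar
  rw [e]
  have : (fderiv ℂ φ z) I = I • (fderiv ℂ φ z) 1 := by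
    rw [← map_smul]
    simp
  simp only [ContinuousLinearMap.coe_restrictScalars']
  rw [this, smul_smul, Complex.I_mul_I]
  simp

lemma fderiv_ofReal {w : ℂ → ℝ} {z : ℂ} (hw : DifferentiableAt ℝ w z) (v : ℂ) :
    fderiv ℝ (fun z => ((w z : ℝ) : ℂ)) z v = ((fderiv ℝ w z v : ℝ) : ℂ) := by
  have h : HasFDerivAt (fun z => ((w z : ℝ) : ℂ)) (Complex.ofRealCLM.comp (fderiv ℝ w z)) z :=
    Complex.ofRealCLM.hasFDerivAt.comp z hw.hasFDerivAt
  rw [h.fderiv]
  rfl

lemma norm_dw_le {w : ℂ → ℝ} {z : ℂ} (hw : DifferentiableAt ℝ w z) :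
    ‖dw w z‖ ≤ ‖fderiv ℝ w z‖ := by
  unfold dw dbar
  rw [fderiv_ofReal hw, fderiv_ofReal hw, norm_smul]
  have h1 : ‖((fderiv ℝ w z 1 : ℝ) : ℂ)‖ ≤ ‖fderiv ℝ w z‖ := by
    rw [Complex.norm_real]
    simpa using (fderiv ℝ w z).le_opNorm 1
  have h2 : ‖I • ((fderiv ℝ w z I : ℝ) : ℂ)‖ ≤ ‖fderiv ℝ w z‖ := by
    rw [norm_smul, Complex.norm_I, one_mul, Complex.norm_real]
    simpa using (fderiv ℝ w z).le_opNorm I
  have h3 := norm_add_le ((fderiv ℝ w z 1 : ℝ) : ℂ) (I • ((fderiv ℝ w z I : ℝ) : ℂ))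
  have h4 : ‖(1 / 2 : ℂ)‖ = 1 / 2 := by norm_num
  rw [h4]
  linarith

lemma dbar_smul {w : ℂ → ℝ} {φ : ℂ → E} {z : ℂ} (hw : DifferentiableAt ℝ w z)
    (hφ : DifferentiableAt ℝ φ z) :
    dbar (fun z => ((w z : ℝ) : ℂ) • φ z) z = dw w z • φ z + ((w z : ℝ) : ℂ) • dbar φ z := by
  have hw' : HasFDerivAt (fun z => ((w z : ℝ) : ℂ)) (Complex.ofRealCLM.comp (fderiv ℝ w z)) z :=
    Complex.ofRealCLM.hasFDerivAt.comp z hw.hasFDerivAt
  have h : HasFDerivAt (fun z => ((w z : ℝ) : ℂ) • φ z) (((w z : ℝ) : ℂ) • fderiv ℝ φ z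
      + (Complex.ofRealCLM.comp (fderiv ℝ w z)).smulRight (φ z)) z := hw'.smul hφ.hasFDerivAt
  unfold dw dbar
  rw [h.fderiv, hw'.fderiv]
  simp only [add_apply, FunLike.coe_smul, Pi.smul_apply,
    ContinuousLinearMap.smulRight_apply, ContinuousLinearMap.comp_apply]
  module

/-- the glued function -/
noncomputable def glued {ι : Type*} [Fintype ι] (w : ι → ℂ → ℝ) (F : ι → ℂ → E) (z : ℂ) : E :=
  ∑ i, ((w i z : ℝ) : ℂ) • F i z

lemma eventually_zero_of_notMem_tsupport {w : ℂ → ℝ} {z : ℂ} (h : z ∉ tsupport w) :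
    w =ᶠ[𝓝 z] fun _ => 0 := by
  have := notMem_tsupport_iff_eventuallyEq.1 h
  exact this

lemma dw_eq_zero_of_notMem {w : ℂ → ℝ} {z : ℂ} (h : z ∉ tsupport w) : dw w z = 0 := by
  refine dbar_eq_zero_of_eventually_const (c := (0 : ℂ)) ?_
  filter_upwards [eventually_zero_of_notMem_tsupport h] with y hy
  rw [hy]
  simp

lemma piece [CompleteSpace E] {w : ℂ → ℝ} (hw : ContDiff ℝ 1 w) {F : ℂ → E} {U : Set ℂ}
    (hU : IsOpen U) (hF : DifferentiableOn ℂ F U) (hs : tsupport w ⊆ U) (z : ℂ) :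
    ContDiffAt ℝ 1 (fun z => ((w z : ℝ) : ℂ) • F z) z ∧
      dbar (fun z => ((w z : ℝ) : ℂ) • F z) z = dw w z • F z := by
  by_cases hz : z ∈ tsupport w
  · have hzU := hs hz
    have hd : DifferentiableAt ℂ F z := hF.differentiableAt (hU.mem_nhds hzU)
    have hc : ContDiffAt ℂ 1 F z := (hF.contDiffOn hU).contDiffAt (hU.mem_nhds hzU)
    have hcR : ContDiffAt ℝ 1 F z := hc.restrict_scalars ℝ
    have hw1 : ContDiffAt ℝ 1 (fun z => ((w z : ℝ) : ℂ)) z :=
      (Complex.ofRealCLM.contDiff.comp hw).contDiffAt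
    refine ⟨hw1.smul hcR, ?_⟩
    rw [dbar_smul (hw.differentiable (by norm_num) z) (hcR.differentiableAt (by norm_num)),
      dbar_holo hd, smul_zero, add_zero]
  · have h0 : (fun z => ((w z : ℝ) : ℂ) • F z) =ᶠ[𝓝 z] fun _ => (0 : E) := by
      filter_upwards [eventually_zero_of_notMem_tsupport hz] with y hy
      rw [hy]
      simp
    refine ⟨contDiffAt_const.congr_of_eventuallyEq h0, ?_⟩
    rw [dbar_eq_zero_of_eventually_const h0, dw_eq_zero_of_notMem hz, zero_smul]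

lemma glued_spec {ι : Type*} [Fintype ι] [CompleteSpace E] {w : ι → ℂ → ℝ}
    (hw : ∀ i, ContDiff ℝ 1 (w i)) {F : ι → ℂ → E} {U : ι → Set ℂ} (hU : ∀ i, IsOpen (U i))
    (hF : ∀ i, DifferentiableOn ℂ (F i) (U i)) (hs : ∀ i, tsupport (w i) ⊆ U i) :
    ContDiff ℝ 1 (glued w F) ∧ ∀ z, dbar (glued w F) z = ∑ i, dw (w i) z • F i z := by
  have hp := fun i z => piece (hw i) (hU i) (hF i) (hs i) z
  constructor
  · rw [contDiff_iff_contDiffAt]
    intro z
    unfold glued
    exact ContDiffAt.sum fun i _ => (hp i z).1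
  · intro z
    have hd : ∀ i, DifferentiableAt ℝ (fun z => ((w i z : ℝ) : ℂ) • F i z) z :=
      fun i => (hp i z).1.differentiableAt (by norm_num)
    have e : fderiv ℝ (glued w F) z = ∑ i, fderiv ℝ (fun z => ((w i z : ℝ) : ℂ) • F i z) z := by
      unfold glued
      exact fderiv_fun_sum fun i _ => hd i
    have : dbar (glued w F) z = ∑ i, dbar (fun z => ((w i z : ℝ) : ℂ) • F i z) z := by
      unfold dbar
      rw [e]
      simp only [sum_apply]
      rw [Finset.smul_sum, ← Finset.sum_add_distrib, Finset.smul_sum]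
    rw [this]
    exact Finset.sum_congr rfl fun i _ => (hp i z).2

end glue

end Vale.Agent.P030.H580
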