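import Vale.Agent.P030.H580.Walls
import Vale.Agent.P030.H152.CellNorm

/-! # The partitions of unity of 152's `PU` from a decision tree of walls (helper580) -/

open MeasureTheory Set Filter Topology Complex

namespace Vale.Agent.P030.H580

namespace WTree

variable {κ ι : Type}

/-- the open region of the cell `i` -/
def oreg (g : κ → ℂ → ℝ) (ε : ℝ) : WTree κ ι → ι → Set ℂ
  | leaf i0, i => {_z | i = i0}
  | node j l r, i => ({z | -ε < g j z} ∩ r.oreg g ε i) ∪ ({z | g j z < ε} ∩ l.oreg g ε i)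

lemma isOpen_oreg {g : κ → ℂ → ℝ} (hg : ∀ j, Continuous (g j)) (ε : ℝ) (T : WTree κ ι) (i : ι) :
    IsOpen (T.oreg g ε i) := by
  induction T with
  | leaf i0 => exact isOpen_const
  | node j l r hl hr =>
    exact ((isOpen_lt continuous_const (hg j)).inter hr).union
      ((isOpen_lt (hg j) continuous_const).inter hl)

lemma reg_subset_oreg (g : κ → ℂ → ℝ) {ε ε' : ℝ} (h : ε < ε') (T : WTree κ ι) (i : ι) :
    T.reg g ε i ⊆ T.oreg g ε' i := by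
  induction T with
  | leaf i0 => exact fun _ hz => hz
  | node j l r hl hr =>
    rintro z (⟨h1, h2⟩ | ⟨h1, h2⟩)
    · exact Or.inl ⟨lt_of_lt_of_le (neg_lt_neg h) h1, hr h2⟩
    · exact Or.inr ⟨lt_of_le_of_lt h1 h, hl h2⟩

lemma oreg_subset_reg (g : κ → ℂ → ℝ) {ε ε' : ℝ} (h : ε ≤ ε') (T : WTree κ ι) (i : ι) :
    T.oreg g ε i ⊆ T.reg g ε' i := by
  induction T with
  | leaf i0 => exact fun _ hz => hz
  | node j l r hl hr =>
    rintro z (⟨h1, h2⟩ | ⟨h1, h2⟩)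
    · exact Or.inl ⟨(neg_le_neg h).trans (le_of_lt h1), hr h2⟩
    · exact Or.inr ⟨(le_of_lt h1).trans h, hl h2⟩

/-- the cells with sharp walls -/
def cell (g : κ → ℂ → ℝ) : WTree κ ι → ι → Set ℂ
  | leaf i0, i => {_z | i = i0}
  | node j l r, i => ({z | 0 < g j z} ∩ r.cell g i) ∪ ({z | g j z ≤ 0} ∩ l.cell g i)

lemma exists_mem_cell (g : κ → ℂ → ℝ) (T : WTree κ ι) (z : ℂ) : ∃ i, z ∈ T.cell g i := by
  induction T with
  | leaf i0 => exact ⟨i0, rfl⟩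
  | node j l r hl hr =>
    rcases lt_or_ge 0 (g j z) with h | h
    · obtain ⟨i, hi⟩ := hr
      exact ⟨i, Or.inl ⟨h, hi⟩⟩
    · obtain ⟨i, hi⟩ := hl
      exact ⟨i, Or.inr ⟨h, hi⟩⟩

lemma cell_subset_oreg (g : κ → ℂ → ℝ) {ε : ℝ} (h : 0 < ε) (T : WTree κ ι) (i : ι) :
    T.cell g i ⊆ T.oreg g ε i := by
  induction T with
  | leaf i0 => exact fun _ hz => hz
  | node j l r hl hr =>
    rintro z (⟨h1, h2⟩ | ⟨h1, h2⟩)
    · exact Or.inl ⟨lt_trans (neg_lt_zero.2 h) h1, hr h2⟩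
    · exact Or.inr ⟨lt_of_le_of_lt h1 h, hl h2⟩

/-- the open regions cover -/
lemma exists_mem_oreg (g : κ → ℂ → ℝ) {ε : ℝ} (h : 0 < ε) (T : WTree κ ι) (z : ℂ) :
    ∃ i, z ∈ T.oreg g ε i := by
  obtain ⟨i, hi⟩ := T.exists_mem_cell g z
  exact ⟨i, T.cell_subset_oreg g h i hi⟩

end WTree

/-- **The hypothesis `PU` of `Cells.hyp` for cells bounded by lines and circles.** -/
theorem pu_of_walls {κ ι : Type} [DecidableEq ι] [Fintype ι] [Fintype κ]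
    (T : WTree κ ι) (W : κ → Wall) {ε R1 : ℝ} (hε : 0 < ε) (hε1 : ε < 1)
    (ie : ι) (hext : ∀ z : ℂ, R1 < ‖z‖ → ∀ i, i ≠ ie → z ∉ T.reg (fun j => (W j).fn) ε i)
    {O : ι → Set ℂ} (hO : ∀ i, T.reg (fun j => (W j).fn) ε i ⊆ O i) :
    ∃ C1 δ0 : ℝ, 0 < C1 ∧ 0 < δ0 ∧ ∀ K : ℕ, ∀ A : Finset ℂ, A.card ≤ K →
      Nonempty (H152.PU O (Metric.closedBall 0 R1) ie (C1 * (K + 1)) (δ0 / (K + 1)) A) := by
  obtain ⟨C1, δ0, hC1, hδ0, H⟩ := exists_partition_walls T W hε hε1 ie hext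
  refine ⟨C1, δ0, hC1, hδ0, fun K A hA => ?_⟩
  obtain ⟨θ, h1, h2, h3, h4, h5, h6, h7, h8, h9⟩ := H K A hA
  refine ⟨⟨θ, h1, h3, fun i => (h4 i).trans (hO i), h6, ?_, ?_, ?_, ?_⟩⟩
  · intro i z hz
    refine h8 z ?_ i
    rw [Metric.mem_closedBall, dist_zero_right, not_le] at hz
    exact hz
  · intro i a ha z hz
    refine h7 a ha z ?_ i
    rwa [dist_eq_norm]
  · intro a ha
    obtain ⟨i, _, hi1, hi2⟩ := h5 a ha
    refine ⟨i, fun i' => ?_⟩
    split_ifs with h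
    · rw [h]; exact hi1
    · exact hi2 i' h
  · have : ∀ᶠ z : ℂ in cocompact ℂ, R1 < ‖z‖ :=
      (tendsto_norm_cocompact_atTop (E := ℂ)).eventually (eventually_gt_atTop R1)
    filter_upwards [this] with z hz
    intro i
    split_ifs with h
    · rw [h]; exact (h9 z hz).1
    · exact (h9 z hz).2 i h

end Vale.Agent.P030.H580
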