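import Vale.Agent.P030.AR.Vec

/-! # The flat vectors continued through all four real intervals, in the `y`-plane (helper580)

`u = uy y = (y+1)/(y-1)`; the upper half plane in `u` is the lower half plane in `y`; the cusps are
`c0 : y = -1`, `c1 : y = 0`, `c2 : y = 1`, `c3 : y = ∞`.  `Vy V W i` is the `i`-th flat vector on the
lower half plane, continued through the interval `Jv q` to the half strip above it. -/

open Set Filter Topology
open scoped ComplexConjugate

namespace Vale.Agent.P030.H580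

open Vale.Agent.P030.AR

noncomputable section

/-- `u` as a function of `y` -/
def uy (y : ℂ) : ℂ := (y + 1) / (y - 1)

/-- the real intervals in `y`, in the order of `AR.Iv` -/
def Jv : Fin 4 → Set ℝ := ![Set.Ioo 0 1, Set.Ioo (-1) 0, Set.Iio (-1), Set.Ioi 1]

/-- the index of the interval -/
def qy (x : ℝ) : Fin 4 := if x < -1 then 2 else if x < 0 then 1 else if x < 1 then 0 else 3

lemma qy_of_mem {q : Fin 4} {x : ℝ} (h : x ∈ Jv q) : qy x = q := by
  unfold qy
  fin_cases q
  · obtain ⟨h1, h2⟩ : 0 < x ∧ x < 1 := h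
    rw [if_neg (by linarith), if_neg (by linarith), if_pos h2]; rfl
  · obtain ⟨h1, h2⟩ : -1 < x ∧ x < 0 := h
    rw [if_neg (by linarith), if_pos h2]; rfl
  · have h1 : x < -1 := h
    rw [if_pos h1]; rfl
  · have h1 : 1 < x := h
    rw [if_neg (by linarith), if_neg (by linarith), if_neg (by linarith)]; rfl

lemma isOpen_Jv (q : Fin 4) : IsOpen (Jv q) := by
  fin_cases q
  · exact isOpen_Ioo
  · exact isOpen_Ioo
  · exact isOpen_Iio
  · exact isOpen_Ioi

lemma exists_Jv {x : ℝ} (h1 : x ≠ -1) (h2 : x ≠ 0) (h3 : x ≠ 1) : ∃ q, x ∈ Jv q := by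
  rcases lt_or_gt_of_ne h1 with h | h
  · exact ⟨2, h⟩
  rcases lt_or_gt_of_ne h2 with h' | h'
  · exact ⟨1, h, h'⟩
  rcases lt_or_gt_of_ne h3 with h'' | h''
  · exact ⟨0, h', h''⟩
  · exact ⟨3, h''⟩

lemma ne_one_of_mem_Jv {q : Fin 4} {y : ℂ} (h : y.re ∈ Jv q) : y ≠ 1 := by
  rintro rfl
  fin_cases q
  · exact lt_irrefl _ (h : (0 : ℝ) < _ ∧ _ < (1 : ℝ)).2
  · exact absurd (h : (-1 : ℝ) < _ ∧ _ < (0 : ℝ)).2 (by norm_num)
  · have h1 : (1 : ℂ).re < -1 := h
    norm_num at h1
  · have h1 : 1 < (1 : ℂ).re := h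
    norm_num at h1

lemma uy_im (y : ℂ) : (uy y).im = -2 * y.im / Complex.normSq (y - 1) := by
  unfold uy
  rw [Complex.div_im]
  simp only [Complex.add_im, Complex.add_re, Complex.sub_re, Complex.sub_im, Complex.one_re,
    Complex.one_im]
  ring

lemma uy_conj (y : ℂ) : uy (conj y) = conj (uy y) := by
  unfold uy
  simp

lemma uy_im_pos {y : ℂ} (h : y.im < 0) : uy y ∈ Up := by
  change 0 < (uy y).im
  rw [uy_im]
  have h1 : y - 1 ≠ 0 := by
    intro h0
    have := congrArg Complex.im h0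
    simp at this
    linarith
  have := Complex.normSq_pos.2 h1
  apply div_pos _ this
  linarith

lemma uy_im_neg {y : ℂ} (h : 0 < y.im) : (uy y).im < 0 := by
  rw [uy_im]
  have h1 : y - 1 ≠ 0 := by
    intro h0
    have := congrArg Complex.im h0
    simp at this
    linarith
  have := Complex.normSq_pos.2 h1
  apply div_neg_of_neg_of_pos _ this
  linarith

lemma uy_real (x : ℝ) : uy (x : ℂ) = (((x + 1) / (x - 1) : ℝ) : ℂ) := by
  unfold uy
  push_cast
  ring

lemma uy_mem_OmI {q : Fin 4} {y : ℂ} (h : y.re ∈ Jv q) : uy y ∈ OmI q := by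
  change (uy y).im = 0 → (uy y).re ∈ Iv q
  intro h0
  have hy1 : y - 1 ≠ 0 := sub_ne_zero.2 (ne_one_of_mem_Jv h)
  have hn := Complex.normSq_pos.2 hy1
  rw [uy_im, div_eq_zero_iff] at h0
  have him : y.im = 0 := by
    rcases h0 with h0 | h0
    · linarith
    · exact absurd h0 hn.ne'
  have hy : y = (y.re : ℂ) := Complex.ext rfl (by simp [him])
  rw [hy, uy_real, Complex.ofReal_re]
  fin_cases q
  · obtain ⟨h1, h2⟩ : 0 < y.re ∧ y.re < 1 := h
    change (y.re + 1) / (y.re - 1) < -1
    rw [div_lt_iff_of_neg (by linarith)]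
    linarith
  · obtain ⟨h1, h2⟩ : -1 < y.re ∧ y.re < 0 := h
    refine ⟨?_, ?_⟩
    · rw [lt_div_iff_of_neg (by linarith)]
      linarith
    · exact div_neg_of_pos_of_neg (by linarith) (by linarith)
  · have h1 : y.re < -1 := h
    refine ⟨?_, ?_⟩
    · exact div_pos_of_neg_of_neg (by linarith) (by linarith)
    · rw [div_lt_iff_of_neg (by linarith)]
      linarith
  · have h1 : 1 < y.re := h
    change 1 < (y.re + 1) / (y.re - 1)
    rw [lt_div_iff₀ (by linarith)]
    linarith

lemma differentiableAt_uy {y : ℂ} (h : y ≠ 1) : DifferentiableAt ℂ uy y := by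
  unfold uy
  exact (differentiableAt_id.add_const _).div (differentiableAt_id.sub_const _) (sub_ne_zero.2 h)

lemma isOpen_OmI (q : Fin 4) : IsOpen (OmI q) := by
  have hI : IsOpen (Iv q) := by
    fin_cases q
    · exact isOpen_Iio
    · exact isOpen_Ioo
    · exact isOpen_Ioo
    · exact isOpen_Ioi
  have : OmI q = {u : ℂ | u.im ≠ 0} ∪ {u : ℂ | u.re ∈ Iv q} := by
    ext u
    simp only [OmI, mem_ofPred_eq, mem_union]
    tauto
  rw [this]
  exact (isOpen_ne_fun Complex.continuous_im continuous_const).union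
    (hI.preimage Complex.continuous_re)

lemma isOpen_Up : IsOpen Up := isOpen_lt continuous_const Complex.continuous_im

/-- the flat vectors in the `y`-plane -/
def Vy (V : Fin 8 → ℂ → Fin 8 → ℂ) (W : Fin 4 → Fin 8 → ℂ → Fin 8 → ℂ) (i : Fin 8) (y : ℂ) :
    Fin 8 → ℂ :=
  if y.im < 0 then V i (uy y) else W (qy y.re) i (uy y)

/-- the domain of `Vy` -/
def OmY : Set ℂ := {y | y.im < 0 ∨ (y.re ≠ -1 ∧ y.re ≠ 0 ∧ y.re ≠ 1)}

lemma isOpen_OmY : IsOpen OmY := by
  have : OmY = {y : ℂ | y.im < 0} ∪ ({y : ℂ | y.re ≠ -1} ∩ ({y : ℂ | y.re ≠ 0} ∩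
      {y : ℂ | y.re ≠ 1})) := by
    ext y
    simp only [OmY, mem_ofPred_eq, mem_union, mem_inter_iff]
  rw [this]
  refine (isOpen_lt Complex.continuous_im continuous_const).union ?_
  exact (isOpen_ne_fun Complex.continuous_re continuous_const).inter
    ((isOpen_ne_fun Complex.continuous_re continuous_const).inter
      (isOpen_ne_fun Complex.continuous_re continuous_const))

section

variable {V : Fin 8 → ℂ → Fin 8 → ℂ} {W : Fin 4 → Fin 8 → ℂ → Fin 8 → ℂ}

lemma Vy_low (i : Fin 8) {y : ℂ} (h : y.im < 0) : Vy V W i y = V i (uy y) := if_pos h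

/-- over the interval `Jv q` the vector is the continuation `W q` -/
lemma Vy_strip (hW : ∀ q, IsW V q (W q)) {q : Fin 4} (i : Fin 8) {y : ℂ} (h : y.re ∈ Jv q) :
    Vy V W i y = W q i (uy y) := by
  unfold Vy
  split_ifs with h0
  · exact ((hW q).up i _ (uy_im_pos h0)).symm
  · rw [qy_of_mem h]

theorem Vy_differentiableAt (hV : IsV V) (hW : ∀ q, IsW V q (W q)) (i j : Fin 8) {y : ℂ}
    (hy : y ∈ OmY) : DifferentiableAt ℂ (fun y => Vy V W i y j) y := by
  rcases hy with h | ⟨h1, h2, h3⟩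
  · have hev : (fun y => Vy V W i y j) =ᶠ[𝓝 y] fun y => V i (uy y) j := by
      filter_upwards [(isOpen_lt Complex.continuous_im continuous_const).mem_nhds h] with z hz
      rw [Vy_low i hz]
    refine DifferentiableAt.congr_of_eventuallyEq ?_ hev
    have hd := ((hV.hol i j) _ (uy_im_pos h)).differentiableAt (isOpen_Up.mem_nhds (uy_im_pos h))
    refine hd.comp y (differentiableAt_uy ?_)
    rintro rfl
    simp at h
  · obtain ⟨q, hq⟩ := exists_Jv h1 h2 h3
    have hev : (fun y => Vy V W i y j) =ᶠ[𝓝 y] fun y => W q i (uy y) j := by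
      have : ∀ᶠ z : ℂ in 𝓝 y, z.re ∈ Jv q :=
        ((isOpen_Jv q).preimage Complex.continuous_re).mem_nhds hq
      filter_upwards [this] with z hz
      rw [Vy_strip hW i hz]
    refine DifferentiableAt.congr_of_eventuallyEq ?_ hev
    have hm := uy_mem_OmI hq
    have hd := (((hW q).hol i j) _ hm).differentiableAt ((isOpen_OmI q).mem_nhds hm)
    exact hd.comp y (differentiableAt_uy (ne_one_of_mem_Jv hq))

theorem Vy_differentiableOn (hV : IsV V) (hW : ∀ q, IsW V q (W q)) (i j : Fin 8) :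
    DifferentiableOn ℂ (fun y => Vy V W i y j) OmY :=
  fun _ hy => (Vy_differentiableAt hV hW i j hy).differentiableWithinAt

theorem Vy_analyticAt (hV : IsV V) (hW : ∀ q, IsW V q (W q)) (i j : Fin 8) {y : ℂ}
    (hy : y ∈ OmY) : AnalyticAt ℂ (fun y => Vy V W i y j) y :=
  (Vy_differentiableOn hV hW i j).analyticAt (isOpen_OmY.mem_nhds hy)

lemma conj_mem_OmY {y : ℂ} {q : Fin 4} (h : y.re ∈ Jv q) : conj y ∈ OmY := by
  right
  rw [Complex.conj_re]
  fin_cases q
  · obtain ⟨h1, h2⟩ : 0 < y.re ∧ y.re < 1 := h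
    exact ⟨by linarith, h1.ne', h2.ne⟩
  · obtain ⟨h1, h2⟩ : -1 < y.re ∧ y.re < 0 := h
    exact ⟨h1.ne', h2.ne, by linarith⟩
  · have h1 : y.re < -1 := h
    exact ⟨h1.ne, by linarith, by linarith⟩
  · have h1 : 1 < y.re := h
    exact ⟨by linarith, by linarith, h1.ne'⟩

lemma mem_OmY_of_Jv {y : ℂ} {q : Fin 4} (h : y.re ∈ Jv q) : y ∈ OmY := by
  have h1 : (conj y).re ∈ Jv q := by rwa [Complex.conj_re]
  have := conj_mem_OmY h1
  rwa [Complex.conj_conj] at this

/-- **Reflection**: above (and on) the interval `Jv q` the flat vectors are constant combinations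
of the mirror vectors. -/
theorem Vy_refl (hV : IsV V) (hW : ∀ q, IsW V q (W q)) {q : Fin 4} (i j : Fin 8) {y : ℂ}
    (hy : 0 ≤ y.im) (h : y.re ∈ Jv q) :
    Vy V W i y j = ∑ k, conj (Rf q i k) * conj (Vy V W k (conj y) j) := by
  rcases hy.eq_or_lt with h0 | h0
  · -- limit of the case `0 < im`
    have hc : conj y ∈ OmY := conj_mem_OmY h
    have hcont1 : ContinuousAt (fun z => Vy V W i z j) y :=
      (Vy_differentiableAt hV hW i j (mem_OmY_of_Jv h)).continuousAt
    have hcont2 : ContinuousAt (fun z => ∑ k, conj (Rf q i k) * conj (Vy V W k (conj z) j)) y := by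
      refine tendsto_finsetSum _ fun k _ => ?_
      refine tendsto_const_nhds.mul ?_
      refine (Complex.continuous_conj.tendsto _).comp ?_
      have h1 : ContinuousAt (fun z => Vy V W k z j) (conj y) :=
        (Vy_differentiableAt hV hW k j hc).continuousAt
      exact h1.tendsto.comp (Complex.continuous_conj.tendsto y)
    set F : ℕ → ℂ := fun n => y + (((1 : ℝ) / ((n : ℝ) + 1) : ℝ) : ℂ) * Complex.I with hF
    have hFt : Tendsto F atTop (𝓝 y) := by
      have h1 : Tendsto (fun n : ℕ => (((1 : ℝ) / ((n : ℝ) + 1) : ℝ) : ℂ)) atTop (𝓝 ((0 : ℝ) : ℂ)) :=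
        (Complex.continuous_ofReal.tendsto _).comp tendsto_one_div_add_atTop_nhds_zero_nat
      have h2 := (h1.mul_const Complex.I).const_add y
      rw [Complex.ofReal_zero, zero_mul, add_zero] at h2
      exact h2
    have hFim : ∀ n, 0 < (F n).im := by
      intro n
      have h1 : (F n).im = y.im + 1 / ((n : ℝ) + 1) := by
        simp only [hF, Complex.add_im, Complex.mul_im, Complex.ofReal_re, Complex.ofReal_im,
          Complex.I_im, Complex.I_re]
        ring
      rw [h1, ← h0]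
      positivity
    have hFre : ∀ n, (F n).re = y.re := by
      intro n
      simp only [hF, Complex.add_re, Complex.mul_re, Complex.ofReal_re, Complex.ofReal_im,
        Complex.I_im, Complex.I_re]
      ring
    have hlim1 := hcont1.tendsto.comp hFt
    have hlim2 := hcont2.tendsto.comp hFt
    refine tendsto_nhds_unique hlim1 (hlim2.congr fun n => ?_)
    have hre : (F n).re ∈ Jv q := by rw [hFre]; exact h
    change ∑ k, conj (Rf q i k) * conj (Vy V W k (conj (F n)) j) = Vy V W i (F n) j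
    rw [Vy_strip hW i hre, (hW q).low i _ (uy_im_neg (hFim n)) j]
    refine Finset.sum_congr rfl fun k _ => ?_
    have him : (conj (F n)).im < 0 := by
      rw [Complex.conj_im]
      linarith [hFim n]
    rw [Vy_low k him, uy_conj]
  · rw [Vy_strip hW i h, (hW q).low i _ (uy_im_neg h0) j]
    refine Finset.sum_congr rfl fun k _ => ?_
    have him : (conj y).im < 0 := by
      rw [Complex.conj_im]
      linarith
    rw [Vy_low k him, uy_conj]

/-! ### members with constant coefficients -/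

/-- the flat vector with coefficients `c` -/
def mem (V : Fin 8 → ℂ → Fin 8 → ℂ) (W : Fin 4 → Fin 8 → ℂ → Fin 8 → ℂ) (c : Fin 8 → ℂ) (y : ℂ) :
    Fin 8 → ℂ := fun j => ∑ i, c i * Vy V W i y j

/-- its mirror image -/
def memS (V : Fin 8 → ℂ → Fin 8 → ℂ) (W : Fin 4 → Fin 8 → ℂ → Fin 8 → ℂ) (c : Fin 8 → ℂ) (y : ℂ) :
    Fin 8 → ℂ := fun j => conj (mem V W c (conj y) j)

/-- the domain of the mirror members -/
def OmS : Set ℂ := {y | 0 < y.im ∨ (y.re ≠ -1 ∧ y.re ≠ 0 ∧ y.re ≠ 1)}

lemma conj_mem_OmY_iff {y : ℂ} : conj y ∈ OmY ↔ y ∈ OmS := by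
  simp only [OmY, OmS, mem_ofPred_eq, Complex.conj_im, Complex.conj_re, neg_lt_zero]

lemma isOpen_OmS : IsOpen OmS := by
  have : OmS = conj ⁻¹' OmY := by
    ext y
    exact conj_mem_OmY_iff.symm
  rw [this]
  exact isOpen_OmY.preimage Complex.continuous_conj

theorem mem_analyticAt (hV : IsV V) (hW : ∀ q, IsW V q (W q)) (c : Fin 8 → ℂ) (j : Fin 8) {y : ℂ}
    (hy : y ∈ OmY) : AnalyticAt ℂ (fun y => mem V W c y j) y := by
  unfold mem
  exact Finset.analyticAt_fun_sum _ fun i _ =>
    analyticAt_const.mul (Vy_analyticAt hV hW i j hy)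

theorem memS_differentiableOn (hV : IsV V) (hW : ∀ q, IsW V q (W q)) (c : Fin 8 → ℂ)
    (j : Fin 8) : DifferentiableOn ℂ (fun y => memS V W c y j) OmS := by
  intro y hy
  have h1 : DifferentiableAt ℂ (fun y => mem V W c y j) (conj y) :=
    (mem_analyticAt hV hW c j (conj_mem_OmY_iff.2 hy)).differentiableAt
  exact (differentiableAt_conj_conj_iff.2 h1).differentiableWithinAt

theorem memS_analyticAt (hV : IsV V) (hW : ∀ q, IsW V q (W q)) (c : Fin 8 → ℂ) (j : Fin 8) {y : ℂ}
    (hy : y ∈ OmS) : AnalyticAt ℂ (fun y => memS V W c y j) y :=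
  (memS_differentiableOn hV hW c j).analyticAt (isOpen_OmS.mem_nhds hy)

/-- the coefficients of the reflected vector -/
def rfl' (q : Fin 4) (c : Fin 8 → ℂ) : Fin 8 → ℂ := fun k => ∑ i, conj (c i) * Rf q i k

/-- **above the interval `Jv q` the member `c` is the mirror member `rfl' q c`** -/
theorem mem_refl (hV : IsV V) (hW : ∀ q, IsW V q (W q)) {q : Fin 4} (c : Fin 8 → ℂ) {y : ℂ}
    (hy : 0 ≤ y.im) (h : y.re ∈ Jv q) : mem V W c y = memS V W (rfl' q c) y := by
  funext j
  unfold memS mem rfl'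
  simp only [map_sum, map_mul, Complex.conj_conj]
  calc ∑ i, c i * Vy V W i y j
      = ∑ i, ∑ k, c i * (conj (Rf q i k) * conj (Vy V W k (conj y) j)) := by
        refine Finset.sum_congr rfl fun i _ => ?_
        rw [Vy_refl hV hW i j hy h, Finset.mul_sum]
    _ = ∑ k, ∑ i, c i * (conj (Rf q i k) * conj (Vy V W k (conj y) j)) := Finset.sum_comm
    _ = _ := by
        refine Finset.sum_congr rfl fun k _ => ?_
        rw [Finset.sum_mul]
        refine Finset.sum_congr rfl fun i _ => ?_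
        ring

/-- **below the interval `Jv q` the mirror member `c` is the member `rfl' q c`** -/
theorem memS_refl (hV : IsV V) (hW : ∀ q, IsW V q (W q)) {q : Fin 4} (c : Fin 8 → ℂ) {y : ℂ}
    (hy : y.im ≤ 0) (h : y.re ∈ Jv q) : memS V W c y = mem V W (rfl' q c) y := by
  have h1 : 0 ≤ (conj y).im := by rw [Complex.conj_im]; linarith
  have h2 : (conj y).re ∈ Jv q := by rwa [Complex.conj_re]
  funext j
  change conj (mem V W c (conj y) j) = _
  rw [mem_refl hV hW c h1 h2]
  unfold memS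
  rw [Complex.conj_conj, Complex.conj_conj]

/-- `mem` is linear in the coefficients -/
theorem mem_sum {ι : Type*} (s : Finset ι) (a : ι → ℂ) (w : ι → Fin 8 → ℂ) (y : ℂ) :
    mem V W (fun k => ∑ b ∈ s, a b * w b k) y = fun j => ∑ b ∈ s, a b * mem V W (w b) y j := by
  funext j
  unfold mem
  simp only [Finset.sum_mul, Finset.mul_sum]
  rw [Finset.sum_comm]
  exact Finset.sum_congr rfl fun b _ => Finset.sum_congr rfl fun k _ => by ring

/-- `memS` is antilinear in the coefficients -/
theorem memS_sum {ι : Type*} (s : Finset ι) (a : ι → ℂ) (w : ι → Fin 8 → ℂ) (y : ℂ) :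
    memS V W (fun k => ∑ b ∈ s, a b * w b k) y
      = fun j => ∑ b ∈ s, conj (a b) * memS V W (w b) y j := by
  funext j
  change conj (mem V W (fun k => ∑ b ∈ s, a b * w b k) (conj y) j) = _
  rw [mem_sum]
  simp only [map_sum, map_mul]
  rfl

end

end

end Vale.Agent.P030.H580
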