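import Vale.Agent.P030.H580.Walls
import Vale.Agent.P030.H265.Thin

/-! # 265's `WallData` from sharp regions only (helper580)

`WallIn` = a decision tree of lines and circles, frames on open sets containing the SHARP closed
cells `T.reg g 0 i`; the width of the collars and the Lipschitz constants are produced by
compactness. -/

open MeasureTheory Set Filter Topology Matrix
open Vale.Agent.P030.H265 Vale.Agent.P030.H152

namespace Vale.Agent.P030.H580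

/-- if the sharp closed cells are in `U i`, then so are thin collars -/
theorem exists_reg_subset {κ ι : Type} [DecidableEq ι] [Fintype ι] {g : κ → ℂ → ℝ}
    (hg : ∀ j, Continuous (g j)) (T : WTree κ ι) (U : ι → Set ℂ) (hU : ∀ i, IsOpen (U i))
    (R : ℝ) {a : ℝ} (ha : 0 < a)
    (hfar : ∀ i z, R < ‖z‖ → z ∈ T.reg g a i → z ∈ U i) (h0 : ∀ i, T.reg g 0 i ⊆ U i) :
    ∃ ε0 : ℝ, 0 < ε0 ∧ ε0 ≤ a ∧ ∀ i, T.reg g ε0 i ⊆ U i := by
  have h1 : ∀ i, ∃ ε : ℝ, 0 < ε ∧ ∀ z ∈ Metric.closedBall (0 : ℂ) R, z ∈ T.reg g ε i →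
      z ∈ U i := by
    intro i
    obtain ⟨ε, hε, H⟩ := exists_thin hg T i i (isCompact_closedBall (0 : ℂ) R)
      (hU i).isClosed_compl (φ := fun _ => 1) continuous_const
      (fun z _ hz _ hz' => absurd (h0 i hz) hz') (η := 1 / 2) (by norm_num)
    refine ⟨ε, hε, fun z hz hzr => ?_⟩
    by_contra hn
    have := H z hz hzr hzr hn
    norm_num at this
  choose e he hes using h1
  rcases isEmpty_or_nonempty ι with hι | hι
  · exact ⟨a, ha, le_rfl, fun i => (hι.false i).elim⟩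
  obtain ⟨i0, hi0⟩ := Finite.exists_min e
  refine ⟨min a (e i0), lt_min ha (he i0), min_le_left _ _, fun i z hz => ?_⟩
  rcases lt_or_ge R ‖z‖ with hR | hR
  · exact hfar i z hR (reg_mono (min_le_left _ _) T i hz)
  · exact hes i z (mem_closedBall_zero_iff.2 hR)
      (reg_mono ((min_le_right _ _).trans (hi0 i)) T i hz)

/-- wall data with sharp regions -/
structure WallIn (κ ι : Type) [DecidableEq ι] [Fintype ι] [Fintype κ] (m : ℕ) where
  T : WTree κ ι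
  W : κ → Wall
  R1 : ℝ
  ie : ι
  ext : ∀ z : ℂ, R1 < ‖z‖ → ∀ i, i ≠ ie → z ∉ T.reg (fun j => (W j).fn) (1 / 2) i
  U : ι → Set ℂ
  isOpen_U : ∀ i, IsOpen (U i)
  reg_U : ∀ i, T.reg (fun j => (W j).fn) 0 i ⊆ U i
  far_U : ∀ z : ℂ, R1 < ‖z‖ → z ∈ U ie
  S : ι → ℂ → Matrix (Fin m) (Fin m) ℂ
  uni : ∀ i, ∀ z ∈ U i, Unitri (S i z)
  hol : ∀ i b c, DifferentiableOn ℂ (fun z => S i z b c) (U i)
  lim : ∀ b, ∃ c : Fin m → ℂ, Tendsto (fun z => S ie z b) (cocompact ℂ) (𝓝 c)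
  Z : ι → ι → Fin m → Fin m → Set ℂ
  closed_Z : ∀ i i' b c, IsClosed (Z i i' b c)
  zero : ∀ i i' z, z ∈ U i → z ∈ U i' → ∀ b c, z ∉ Z i i' b c → (S i z b ᵥ* (S i' z)⁻¹) c = 0

namespace WallIn

variable {κ ι : Type} [DecidableEq ι] [Fintype ι] [Fintype κ] {m : ℕ} (G : WallIn κ ι m)

/-- the wall functions -/
def g (j : κ) : ℂ → ℝ := (G.W j).fn

theorem exists_data : ∃ ε0 L : ℝ, 0 < ε0 ∧ ε0 ≤ 1 / 2 ∧ 0 < L ∧
    (∀ i, G.T.reg G.g ε0 i ⊆ G.U i) ∧
    (∀ j z, |G.g j z| ≤ 1 / 2 → ‖fderiv ℝ (G.g j) z‖ ≤ L) ∧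
    (∀ j x z, |G.g j x| ≤ 1 / 2 → dist x z ≤ 1 → |G.g j x - G.g j z| ≤ L * dist x z) := by
  obtain ⟨L, hL, h1, h2⟩ := Wall.exists_lip G.W (ε := 1 / 2) (by norm_num)
  obtain ⟨ε0, h3, h4, h5⟩ := exists_reg_subset (g := G.g)
    (fun j => (G.W j).contDiff_fn.continuous) G.T G.U G.isOpen_U G.R1 (a := 1 / 2) (by norm_num)
    (by
      intro i z hz hzr
      by_cases hi : i = G.ie
      · rw [hi]; exact G.far_U z hz
      · exact absurd hzr (G.ext z hz i hi)) G.reg_U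
  exact ⟨ε0, L, h3, h4, hL, h5, h1, h2⟩

/-- the width of the collars -/
noncomputable def ε0 : ℝ := G.exists_data.choose

/-- the Lipschitz constant -/
noncomputable def L : ℝ := G.exists_data.choose_spec.choose

theorem data_spec : 0 < G.ε0 ∧ G.ε0 ≤ 1 / 2 ∧ 0 < G.L ∧
    (∀ i, G.T.reg G.g G.ε0 i ⊆ G.U i) ∧
    (∀ j z, |G.g j z| ≤ 1 / 2 → ‖fderiv ℝ (G.g j) z‖ ≤ G.L) ∧
    (∀ j x z, |G.g j x| ≤ 1 / 2 → dist x z ≤ 1 → |G.g j x - G.g j z| ≤ G.L * dist x z) :=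
  G.exists_data.choose_spec.choose_spec

/-- **265's wall data** -/
noncomputable def toWallData : WallData κ ι m where
  T := G.T
  g := G.g
  smooth := fun j => (G.W j).contDiff_fn
  ε0 := G.ε0
  L := G.L
  R1 := G.R1
  ie := G.ie
  ε0_pos := G.data_spec.1
  L_pos := G.data_spec.2.2.1
  der := fun j z h => G.data_spec.2.2.2.2.1 j z (h.trans G.data_spec.2.1)
  lip := fun j x z h hd => G.data_spec.2.2.2.2.2 j x z (h.trans G.data_spec.2.1) hd
  ext := fun z hz i hi h => G.ext z hz i hi (reg_mono G.data_spec.2.1 G.T i h)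
  U := G.U
  reg_U := G.data_spec.2.2.2.1
  isOpen_U := G.isOpen_U
  S := G.S
  uni := G.uni
  hol := G.hol
  lim := G.lim
  Z := G.Z
  closed_Z := G.closed_Z
  zero := G.zero

end WallIn

end Vale.Agent.P030.H580
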